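import Vale.Agent.P230.Core

open MeasureTheory Set Metric
open scoped ENNReal RealInnerProductSpace

namespace Vale.Agent.P230

variable {n : ℕ}

lemma sum_cnt_le (X O : Finset (Zn n)) (y : Zn n) {r : ℝ} (hr : 0 ≤ r) :
    ∑ w ∈ O, (cnt X (w + y) r : ℝ) ≤ X.card * ((r + n) ^ n * om n) := by
  classical
  have e : ∑ w ∈ O, (cnt X (w + y) r : ℝ)
      = ∑ x ∈ X, ((O.filter fun w => ‖emb (w + y) - emb x‖ ≤ r).card : ℝ) := by
    unfold cnt
    simp only [Finset.card_filter, Nat.cast_sum]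
    exact Finset.sum_comm
  have h : ∀ x ∈ X, ((O.filter fun w => ‖emb (w + y) - emb x‖ ≤ r).card : ℝ)
      ≤ (r + n) ^ n * om n := by
    intro x _
    refine card_le_of_near (z := emb x - emb y) hr fun g hg => ?_
    have := (Finset.mem_filter.1 hg).2
    rw [emb_add] at this
    refine le_trans (le_of_eq ?_) this
    congr 1
    abel
  rw [e]
  refine (Finset.sum_le_sum h).trans ?_
  rw [Finset.sum_const, nsmul_eq_mul]

lemma rk_nonneg (hn : 1 ≤ n) {k : ℕ} (hk : k ≤ n) : 0 ≤ rk n k := by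
  have hn0 : (0:ℝ) < n := by exact_mod_cast hn
  refine mul_nonneg (rad_nonneg n) ?_
  rw [sub_nonneg, div_le_one hn0]
  exact_mod_cast hk

lemma rk_pow_le (hn : 1 ≤ n) {k : ℕ} (hk : k ≤ n) :
    (rk n k + n) ^ n ≤ rad n ^ n * Real.exp (1 - k) := by
  have hn' : (1:ℝ) ≤ n := by exact_mod_cast hn
  have hn0 : (0:ℝ) < n := by linarith
  have h0 := rk_nonneg hn hk
  have h1 : rk n k + n ≤ rad n * Real.exp (1 / n - k / n) := by
    have h2 := Real.add_one_le_exp (1 / (n:ℝ) - k / n)
    have h3 : (n:ℝ) ≤ rad n * (1 / n) := by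
      have e : rad n * (1 / n) = 1000 * n := by unfold rad; field_simp
      linarith
    have h4 := mul_le_mul_of_nonneg_left h2 (rad_nonneg n)
    unfold rk
    linarith
  have h5 := pow_le_pow_left₀ (by positivity) h1 n
  rw [mul_pow, ← Real.exp_nat_mul] at h5
  have e : (n:ℝ) * (1 / n - k / n) = 1 - k := by field_simp
  rwa [e] at h5

lemma sum_exp_le (T : ℕ) : ∑ k ∈ Finset.range T, Real.exp (1 - k) ≤ 6 := by
  have h : ∀ k ∈ Finset.range T, Real.exp (1 - k) ≤ 3 * (1 / 2) ^ k := by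
    intro k _
    have h1 : Real.exp (-1) ≤ 1 / 2 := by
      have := Real.add_one_le_exp 1
      rw [Real.exp_neg, inv_le_comm₀ (Real.exp_pos _) (by norm_num)]
      linarith
    have h2 : Real.exp (1 - k) = Real.exp 1 * Real.exp (-1) ^ k := by
      rw [← Real.exp_nat_mul, ← Real.exp_add]; congr 1; ring
    have h3 := Real.exp_one_lt_d9
    rw [h2]
    exact mul_le_mul (by linarith) (pow_le_pow_left₀ (Real.exp_pos _).le h1 k) (by positivity)
      (by norm_num)
  refine (Finset.sum_le_sum h).trans ?_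
  rw [← Finset.mul_sum]
  linarith [sum_geometric_two_le T]

lemma le_card_gball (hn : 1 ≤ n) : rad n ^ n * om n / 2 ≤ (gball (0 : E n) (rad n)).card := by
  have hn' : (1:ℝ) ≤ n := by exact_mod_cast hn
  have hn0 : (0:ℝ) < n := by linarith
  have e : rad n - n = rad n * (1 + -(1 / (1000 * n))) := by unfold rad; field_simp; ring
  have h0 : 1 / (1000 * (n:ℝ)) ≤ 1 := by rw [div_le_one (by positivity)]; linarith
  have h1 := le_card_of_all (s := gball (0 : E n) (rad n)) (z := 0) (r := rad n - n)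
    (by rw [e]; exact mul_nonneg (rad_nonneg n) (by linarith))
    fun g hg => mem_gball.2 (by linarith)
  have h2 := one_add_mul_le_pow (a := -(1 / (1000 * (n:ℝ)))) (by linarith) n
  have e2 : (n:ℝ) * -(1 / (1000 * n)) = -(1 / 1000) := by field_simp
  rw [e2] at h2
  rw [e, mul_pow] at h1
  have h3 := mul_le_mul_of_nonneg_left h2 (show 0 ≤ rad n ^ n * om n by
    have := rad_nonneg n
    have := om_pos n
    positivity)
  have h4 : 0 ≤ rad n ^ n * om n := by
    have := rad_nonneg n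
    have := om_pos n
    positivity
  linarith

open Classical in
/-- The centres near `w`, seen from `w`. -/
noncomputable def loc (X : Finset (Zn n)) (w : Zn n) : Finset (Zn n) :=
  (X.filter fun x => ‖emb w - emb x‖ ≤ 2 * rad n).image fun x => x - w

lemma loc_subset (X : Finset (Zn n)) (w : Zn n) : loc X w ⊆ uu n := by
  intro a ha
  obtain ⟨x, hx, rfl⟩ := Finset.mem_image.1 ha
  rw [uu, mem_gball, sub_zero, emb_sub, norm_sub_rev]
  exact (Finset.mem_filter.1 hx).2

lemma cnt_loc_le (X : Finset (Zn n)) (w y : Zn n) (r : ℝ) :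
    cnt (loc X w) y r ≤ cnt X (w + y) r := by
  classical
  unfold cnt
  refine le_trans (Finset.card_le_card ?_) (Finset.card_image_le (f := fun x => x - w))
  intro a ha
  obtain ⟨h1, h2⟩ := Finset.mem_filter.1 ha
  obtain ⟨x, hx, rfl⟩ := Finset.mem_image.1 h1
  refine Finset.mem_image.2 ⟨x, Finset.mem_filter.2 ⟨(Finset.mem_filter.1 hx).1, ?_⟩, rfl⟩
  rw [emb_sub] at h2
  rw [emb_add]
  refine le_trans (le_of_eq ?_) h2
  congr 1
  abel

open Classical in
lemma exists_window (hn : 1 ≤ n) {T N : ℕ} (hT : T ≤ n) {σ : ℝ} (hσ : 0 < σ)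
    (hN : 4 * σ * 3 ^ n ≤ N) (hσT : σ * Real.exp (1 - T) ≤ 1 / 8)
    (X O : Finset (Zn n)) (hO : O.Nonempty) (hX : X.card * (rad n ^ n * om n) ≤ σ * O.card) :
    ∃ w ∈ O, (loc X w).card ≤ N ∧
      rad n ^ n * om n / 4 ≤ ((gball 0 (rad n)).filter (Good (loc X w) T (48 * σ))).card := by
  have hn' : (1:ℝ) ≤ n := by exact_mod_cast hn
  have ho := om_pos n
  have hL : 0 < rad n := by unfold rad; positivity
  set v := rad n ^ n * om n with hv
  have hv0 : 0 < v := by positivity
  set B := gball (0 : E n) (rad n) with hB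
  have hV := le_card_gball hn
  rw [← hB, ← hv] at hV
  have hV0 : (0:ℝ) < B.card := by linarith
  let β : Zn n → Zn n → ℝ := fun w y =>
    (∑ k ∈ Finset.range T, (cnt X (w + y) (rk n k) : ℝ)) / (48 * σ) + cnt X (w + y) (rk n T)
  have hβ0 : ∀ w y, 0 ≤ β w y := fun w y => by
    have : 0 ≤ ∑ k ∈ Finset.range T, (cnt X (w + y) (rk n k) : ℝ) :=
      Finset.sum_nonneg fun _ _ => Nat.cast_nonneg _
    exact add_nonneg (div_nonneg this (by positivity)) (Nat.cast_nonneg _)
  have h1 : ∑ w ∈ O, (cnt X (w + 0) (2 * rad n) : ℝ) ≤ σ * 3 ^ n * O.card := by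
    refine (sum_cnt_le X O 0 (by positivity)).trans ?_
    have h2 : (2 * rad n + n) ^ n ≤ 3 ^ n * rad n ^ n := by
      rw [← mul_pow]
      exact pow_le_pow_left₀ (by positivity) (by unfold rad; nlinarith) n
    have h3 := mul_le_mul_of_nonneg_left (mul_le_mul_of_nonneg_right h2 ho.le)
      (Nat.cast_nonneg (α := ℝ) X.card)
    have h4 := mul_le_mul_of_nonneg_left hX (show (0:ℝ) ≤ 3 ^ n by positivity)
    rw [hv] at h4
    linarith
  have h2 : ∀ y, ∀ k ≤ n, ∑ w ∈ O, (cnt X (w + y) (rk n k) : ℝ)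
      ≤ σ * O.card * Real.exp (1 - k) := by
    intro y k hk
    refine (sum_cnt_le X O y (rk_nonneg hn hk)).trans ?_
    have h3 := mul_le_mul_of_nonneg_left (mul_le_mul_of_nonneg_right (rk_pow_le hn hk) ho.le)
      (Nat.cast_nonneg (α := ℝ) X.card)
    have h4 := mul_le_mul_of_nonneg_right hX (Real.exp_pos (1 - k)).le
    rw [hv] at h4
    linarith
  have h3 : ∀ y ∈ B, ∑ w ∈ O, β w y ≤ O.card / 4 := by
    intro y _
    simp only [β]
    rw [Finset.sum_add_distrib, ← Finset.sum_div, Finset.sum_comm]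
    have h4 := Finset.sum_le_sum (s := Finset.range T)
      fun k hk => h2 y k ((Finset.mem_range.1 hk).le.trans hT)
    rw [← Finset.mul_sum] at h4
    have h5 := mul_le_mul_of_nonneg_left (sum_exp_le T) (show 0 ≤ σ * O.card by positivity)
    have h6 : (∑ k ∈ Finset.range T, ∑ w ∈ O, (cnt X (w + y) (rk n k) : ℝ)) / (48 * σ)
        ≤ O.card / 8 := by
      rw [div_le_iff₀ (by positivity)]
      linarith
    have h7 := h2 y T hT
    have h8 := mul_le_mul_of_nonneg_right hσT (Nat.cast_nonneg (α := ℝ) O.card)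
    linarith
  have h4 := Finset.sum_le_sum h3
  rw [Finset.sum_const, nsmul_eq_mul, Finset.sum_comm] at h4
  have h5 : ∑ w ∈ O, ((cnt X (w + 0) (2 * rad n) : ℝ) / (4 * σ * 3 ^ n)
      + 2 / B.card * ∑ y ∈ B, β w y) ≤ ∑ _w ∈ O, (3 / 4 : ℝ) := by
    rw [Finset.sum_add_distrib, ← Finset.sum_div, ← Finset.mul_sum, Finset.sum_const,
      nsmul_eq_mul]
    have h6 : (∑ w ∈ O, (cnt X (w + 0) (2 * rad n) : ℝ)) / (4 * σ * 3 ^ n) ≤ O.card / 4 := by
      rw [div_le_iff₀ (by positivity)]
      linarith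
    have h7 := mul_le_mul_of_nonneg_left h4 (show (0:ℝ) ≤ 2 / B.card by positivity)
    have e : 2 / (B.card : ℝ) * (B.card * (O.card / 4)) = O.card / 2 := by field_simp; ring
    linarith
  obtain ⟨w, hw, hw'⟩ := Finset.exists_le_of_sum_le hO h5
  have h6 : 0 ≤ ∑ y ∈ B, β w y := Finset.sum_nonneg fun y _ => hβ0 w y
  refine ⟨w, hw, ?_, ?_⟩
  · have h7 : (loc X w).card ≤ cnt X (w + 0) (2 * rad n) := by
      unfold loc cnt
      rw [add_zero]
      exact Finset.card_image_le
    have h8 : (cnt X (w + 0) (2 * rad n) : ℝ) / (4 * σ * 3 ^ n) ≤ 1 := by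
      have : 0 ≤ 2 / B.card * ∑ y ∈ B, β w y := mul_nonneg (div_nonneg zero_le_two hV0.le) h6
      linarith
    rw [div_le_one (by positivity)] at h8
    have h9 : ((loc X w).card : ℝ) ≤ cnt X (w + 0) (2 * rad n) := by exact_mod_cast h7
    exact_mod_cast h9.trans (h8.trans hN)
  · have h7 : 2 / B.card * ∑ y ∈ B, β w y ≤ 1 := by
      have : 0 ≤ (cnt X (w + 0) (2 * rad n) : ℝ) / (4 * σ * 3 ^ n) :=
        div_nonneg (Nat.cast_nonneg _) (by positivity)
      linarith
    rw [div_mul_eq_mul_div, div_le_one hV0] at h7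
    have h8 : ∀ y ∈ B, (1:ℝ) ≤ (if Good (loc X w) T (48 * σ) y then 1 else 0) + β w y := by
      intro y _
      split_ifs with h
      · linarith [hβ0 w y]
      · have h9 : 0 ≤ ∑ k ∈ Finset.range T, (cnt X (w + y) (rk n k) : ℝ) :=
          Finset.sum_nonneg fun _ _ => Nat.cast_nonneg _
        unfold Good at h
        rw [not_and_or] at h
        simp only [β, zero_add]
        rcases h with h | h
        · have h10 : 1 ≤ cnt X (w + y) (rk n T) :=
            le_trans (Nat.one_le_iff_ne_zero.2 h) (cnt_loc_le X w y _)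
          have h11 : (1:ℝ) ≤ cnt X (w + y) (rk n T) := by exact_mod_cast h10
          have : 0 ≤ (∑ k ∈ Finset.range T, (cnt X (w + y) (rk n k) : ℝ)) / (48 * σ) :=
            div_nonneg h9 (by positivity)
          linarith
        · have h10 : ∑ k ∈ Finset.range T, (cnt (loc X w) y (rk n k) : ℝ)
              ≤ ∑ k ∈ Finset.range T, (cnt X (w + y) (rk n k) : ℝ) :=
            Finset.sum_le_sum fun k _ => by exact_mod_cast cnt_loc_le X w y _
          have h11 : 1 ≤ (∑ k ∈ Finset.range T, (cnt X (w + y) (rk n k) : ℝ)) / (48 * σ) := by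
            rw [one_le_div (by positivity)]
            linarith [not_le.1 h]
          have : (0:ℝ) ≤ cnt X (w + y) (rk n T) := Nat.cast_nonneg _
          linarith
    have h9 := Finset.sum_le_sum h8
    rw [Finset.sum_const, nsmul_eq_mul, mul_one, Finset.sum_add_distrib] at h9
    have e : ((B.filter (Good (loc X w) T (48 * σ))).card : ℝ)
        = ∑ y ∈ B, if Good (loc X w) T (48 * σ) y then 1 else 0 := by
      rw [Finset.card_filter]
      push_cast
      rfl
    rw [e]
    generalize (∑ y ∈ B, if Good (loc X w) T (48 * σ) y then (1:ℝ) else 0) = q at h9 ⊢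
    linarith

end Vale.Agent.P230
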