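import Mathlib

open Finset

namespace Vale.Agent.P230

variable {Γ : Type*} [Fintype Γ] [DecidableEq Γ]

/-- Bernoulli weight of a random subset. -/
noncomputable def wt (p : ℝ) (w : Finset Γ) : ℝ := p ^ w.card * (1 - p) ^ (Fintype.card Γ - w.card)

/-- Expectation over a Bernoulli random subset. -/
noncomputable def Ex (p : ℝ) (F : Finset Γ → ℝ) : ℝ := ∑ w, wt p w * F w

variable {p : ℝ}

omit [DecidableEq Γ] in
lemma wt_nonneg (h0 : 0 ≤ p) (h1 : p ≤ 1) (w : Finset Γ) : 0 ≤ wt p w := by
  unfold wt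
  have : 0 ≤ 1 - p := by linarith
  positivity

omit [DecidableEq Γ] in
lemma Ex_const (a : ℝ) : Ex p (fun _ : Finset Γ => a) = a := by
  unfold Ex wt
  rw [← Finset.sum_mul, Fintype.sum_pow_mul_eq_add_pow]
  simp

omit [DecidableEq Γ] in
lemma Ex_add (F G : Finset Γ → ℝ) : Ex p (fun w => F w + G w) = Ex p F + Ex p G := by
  unfold Ex
  rw [← Finset.sum_add_distrib]
  exact Finset.sum_congr rfl fun w _ => by ring

omit [DecidableEq Γ] in
lemma Ex_sub (F G : Finset Γ → ℝ) : Ex p (fun w => F w - G w) = Ex p F - Ex p G := by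
  unfold Ex
  rw [← Finset.sum_sub_distrib]
  exact Finset.sum_congr rfl fun w _ => by ring

omit [DecidableEq Γ] in
lemma Ex_mul (a : ℝ) (F : Finset Γ → ℝ) : Ex p (fun w => a * F w) = a * Ex p F := by
  unfold Ex
  rw [Finset.mul_sum]
  exact Finset.sum_congr rfl fun w _ => by ring

omit [DecidableEq Γ] in
lemma Ex_sum {ι : Type*} (s : Finset ι) (F : ι → Finset Γ → ℝ) :
    Ex p (fun w => ∑ i ∈ s, F i w) = ∑ i ∈ s, Ex p (F i) := by
  unfold Ex
  rw [Finset.sum_comm]
  exact Finset.sum_congr rfl fun w _ => by rw [Finset.mul_sum]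

omit [DecidableEq Γ] in
lemma Ex_mono (h0 : 0 ≤ p) (h1 : p ≤ 1) {F G : Finset Γ → ℝ} (h : ∀ w, F w ≤ G w) :
    Ex p F ≤ Ex p G :=
  Finset.sum_le_sum fun w _ => mul_le_mul_of_nonneg_left (h w) (wt_nonneg h0 h1 w)

omit [DecidableEq Γ] in
lemma Ex_nonneg (h0 : 0 ≤ p) (h1 : p ≤ 1) {F : Finset Γ → ℝ} (h : ∀ w, 0 ≤ F w) :
    0 ≤ Ex p F := by
  have := Ex_mono h0 h1 (F := fun _ => 0) h
  rwa [Ex_const] at this

omit [DecidableEq Γ] in
lemma Ex_congr {F G : Finset Γ → ℝ} (h : ∀ w, F w = G w) : Ex p F = Ex p G := by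
  have : F = G := funext h
  rw [this]

omit [DecidableEq Γ] in
lemma exists_of_lt_Ex (h0 : 0 ≤ p) (h1 : p ≤ 1) {F : Finset Γ → ℝ} {a : ℝ} (h : a < Ex p F) :
    ∃ w, a < F w := by
  by_contra hc
  push Not at hc
  have := Ex_mono h0 h1 (G := fun _ => a) hc
  rw [Ex_const] at this
  linarith

lemma wt_insert {c : Γ} {w : Finset Γ} (hc : c ∉ w) :
    (1 - p) * wt p (insert c w) = p * wt p w := by
  unfold wt
  rw [Finset.card_insert_of_notMem hc]
  have h : (insert c w).card ≤ Fintype.card Γ := Finset.card_le_univ _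
  rw [Finset.card_insert_of_notMem hc] at h
  have : Fintype.card Γ - w.card = (Fintype.card Γ - (w.card + 1)) + 1 := by omega
  rw [this]
  ring

lemma Ex_key (c : Γ) (G : Finset Γ → ℝ) :
    (1 - p) * Ex p (fun w => if c ∈ w then G (w.erase c) else 0)
      = p * Ex p (fun w => if c ∈ w then 0 else G w) := by
  let t : Finset Γ → Finset Γ := fun w => if c ∈ w then w.erase c else insert c w
  have ht : Function.Involutive t := by
    intro w
    by_cases h : c ∈ w
    · simp [t, h]
    · simp [t, h]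
  unfold Ex
  rw [Finset.mul_sum, Finset.mul_sum,
    ← Equiv.sum_comp ht.toPerm (fun w => (1 - p) * (wt p w * if c ∈ w then G (w.erase c) else 0))]
  refine Finset.sum_congr rfl fun w _ => ?_
  by_cases h : c ∈ w
  · simp [t, h]
  · simp only [Function.Involutive.coe_toPerm, t, h, if_false, Finset.mem_insert_self, if_true,
      Finset.erase_insert h]
    rw [← mul_assoc, wt_insert h]
    ring

lemma Ex_mem (c : Γ) (F : Finset Γ → ℝ) :
    Ex p (fun w => if c ∈ w then F w else 0) = p * Ex p (fun w => F (insert c w)) := by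
  have h1 := Ex_key (p := p) c (fun w => F (insert c w))
  have h2 : Ex p (fun w => if c ∈ w then F (insert c (w.erase c)) else 0)
      = Ex p (fun w => if c ∈ w then F w else 0) :=
    Ex_congr fun w => by
      by_cases h : c ∈ w
      · simp [h]
      · simp [h]
  have h3 : Ex p (fun w => F (insert c w)) = Ex p (fun w => if c ∈ w then F w else 0)
      + Ex p (fun w => if c ∈ w then 0 else F (insert c w)) := by
    rw [← Ex_add]
    refine Ex_congr fun w => ?_
    by_cases h : c ∈ w
    · simp [h]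
    · simp [h]
  rw [h2] at h1
  rw [h3]
  linarith

lemma Ex_notMem (c : Γ) (F : Finset Γ → ℝ) :
    Ex p (fun w => if c ∈ w then 0 else F w) = (1 - p) * Ex p (fun w => F (w.erase c)) := by
  have h1 := Ex_key (p := p) c F
  have h3 : Ex p (fun w => F (w.erase c)) = Ex p (fun w => if c ∈ w then F (w.erase c) else 0)
      + Ex p (fun w => if c ∈ w then 0 else F w) := by
    rw [← Ex_add]
    refine Ex_congr fun w => ?_
    by_cases h : c ∈ w
    · simp [h]
    · simp [h]
  rw [h3]
  linarith

lemma Ex_split (c : Γ) (F : Finset Γ → ℝ) :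
    Ex p F = p * Ex p (fun w => F (insert c w)) + (1 - p) * Ex p (fun w => F (w.erase c)) := by
  rw [← Ex_mem, ← Ex_notMem, ← Ex_add]
  refine Ex_congr fun w => ?_
  by_cases h : c ∈ w
  · simp [h]
  · simp [h]

/-- `F` depends only on the trace on `A`. -/
def Dep (A : Finset Γ) (F : Finset Γ → ℝ) : Prop := ∀ w w', w ∩ A = w' ∩ A → F w = F w'

omit [Fintype Γ] in
lemma Dep.insert_eq {A : Finset Γ} {F : Finset Γ → ℝ} (h : Dep A F) {c : Γ} (hc : c ∉ A)
    (w : Finset Γ) : F (insert c w) = F w :=
  h _ _ (Finset.insert_inter_of_notMem hc)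

omit [Fintype Γ] in
lemma Dep.erase_eq {A : Finset Γ} {F : Finset Γ → ℝ} (h : Dep A F) {c : Γ} (hc : c ∉ A)
    (w : Finset Γ) : F (w.erase c) = F w := by
  refine h _ _ ?_
  ext x
  simp only [Finset.mem_inter, Finset.mem_erase]
  constructor
  · rintro ⟨⟨_, h1⟩, h2⟩; exact ⟨h1, h2⟩
  · rintro ⟨h1, h2⟩; exact ⟨⟨fun e => hc (e ▸ h2), h1⟩, h2⟩

lemma Ex_indep {A B : Finset Γ} (hAB : Disjoint A B) {F G : Finset Γ → ℝ} (hF : Dep A F)
    (hG : Dep B G) : Ex p (fun w => F w * G w) = Ex p F * Ex p G := by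
  induction A using Finset.induction_on generalizing F with
  | empty =>
    have : F = fun _ => F ∅ := funext fun w => hF _ _ (by simp)
    rw [this, Ex_const, Ex_mul]
  | insert c A hc ih =>
    have hcB : c ∉ B := Finset.disjoint_left.1 hAB (Finset.mem_insert_self _ _)
    have hAB' : Disjoint A B := Finset.disjoint_of_subset_left (Finset.subset_insert _ _) hAB
    have h1 : Dep A (fun w => F (insert c w)) := by
      intro w w' h
      refine hF _ _ ?_
      ext x
      have := Finset.ext_iff.1 h x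
      simp only [Finset.mem_inter, Finset.mem_insert] at this ⊢
      tauto
    have h2 : Dep A (fun w => F (w.erase c)) := by
      intro w w' h
      refine hF _ _ ?_
      ext x
      have := Finset.ext_iff.1 h x
      simp only [Finset.mem_inter, Finset.mem_insert, Finset.mem_erase] at this ⊢
      tauto
    rw [Ex_split c, Ex_split c F]
    simp only [hG.insert_eq hcB, hG.erase_eq hcB]
    rw [ih hAB' h1, ih hAB' h2]
    ring

/-- Indicator of containing `C`. -/
noncomputable def ind (C w : Finset Γ) : ℝ := if C ⊆ w then 1 else 0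

omit [Fintype Γ] in
lemma ind_nonneg (C w : Finset Γ) : 0 ≤ ind C w := by
  unfold ind; split_ifs <;> norm_num

lemma Ex_ind (C : Finset Γ) : Ex p (ind C) = p ^ C.card := by
  induction C using Finset.induction_on with
  | empty =>
    have : ind (∅ : Finset Γ) = fun _ => 1 := funext fun w => by simp [ind]
    rw [this, Ex_const]; simp
  | insert c C hc ih =>
    have : ind (insert c C) = fun w => if c ∈ w then ind C w else 0 := funext fun w => by
      by_cases h : c ∈ w <;> simp [ind, Finset.insert_subset_iff, h]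
    rw [this, Ex_mem, Finset.card_insert_of_notMem hc, pow_succ, ← ih, mul_comm]
    congr 1
    refine Ex_congr fun w => ?_
    simp [ind, Finset.subset_insert_iff_of_notMem hc]

lemma Ex_hit_le (h0 : 0 ≤ p) (h1 : p ≤ 1) (S : Finset Γ) :
    Ex p (fun w => if Disjoint w S then (0:ℝ) else 1) ≤ p * S.card := by
  have : Ex p (fun w => if Disjoint w S then (0:ℝ) else 1)
      ≤ Ex p (fun w => ∑ c ∈ S, ind {c} w) := by
    refine Ex_mono h0 h1 fun w => ?_
    split_ifs with h
    · exact Finset.sum_nonneg fun c _ => ind_nonneg _ _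
    · obtain ⟨c, hw, hS⟩ := Finset.not_disjoint_iff.1 h
      have := Finset.single_le_sum (f := fun c => ind {c} w) (fun c _ => ind_nonneg _ _) hS
      simpa [ind, hw] using this
  rw [Ex_sum] at this
  simp only [Ex_ind, Finset.card_singleton, pow_one, Finset.sum_const, nsmul_eq_mul] at this
  linarith

end Vale.Agent.P230
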