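import Vale.Agent.P230.Step

open Finset

namespace Vale.Agent.P230

variable {Γ : Type*} [Fintype Γ] [DecidableEq Γ] {p : ℝ}

lemma list_prod_le_exp {α : Type*} (l : List α) (f h : α → ℝ)
    (H : ∀ a ∈ l, 0 ≤ f a ∧ f a ≤ Real.exp (h a)) :
    (l.map f).prod ≤ Real.exp (l.map h).sum := by
  induction l with
  | nil => simp
  | cons a l ih =>
    rw [List.map_cons, List.map_cons, List.prod_cons, List.sum_cons, Real.exp_add]
    have h1 := H a List.mem_cons_self
    have h2 := ih fun b hb => H b (List.mem_cons_of_mem _ hb)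
    have h3 : 0 ≤ (l.map f).prod := List.prod_nonneg fun x hx => by
      obtain ⟨b, hb, rfl⟩ := List.mem_map.1 hx
      exact (H b (List.mem_cons_of_mem _ hb)).1
    exact mul_le_mul h1.2 h2 h3 (Real.exp_pos _).le

lemma list_sum_le {α : Type*} (l : List α) (h : α → ℝ) (x : ℝ) (H : ∀ a ∈ l, h a ≤ x) :
    (l.map h).sum ≤ l.length * x := by
  induction l with
  | nil => simp
  | cons a l ih =>
    rw [List.map_cons, List.sum_cons, List.length_cons]
    have h1 := H a List.mem_cons_self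
    have h2 := ih fun b hb => H b (List.mem_cons_of_mem _ hb)
    push_cast
    linarith

lemma cross_two (hp : 0 < p) (h1 : p ≤ 1) (l l' : List (Finset Γ)) {J Λ τ : ℝ}
    (hΛ0 : 0 ≤ Λ) (hτ0 : 0 ≤ τ)
    (hl : ∀ S ∈ l, S.Nonempty) (hl' : ∀ S ∈ l', S.Nonempty)
    (hΛ : ∀ S ∈ l, 1 / (p * S.card) ≤ Λ) (hΛ' : ∀ S ∈ l', 1 / (p * S.card) ≤ Λ)
    (hJ : (l.length : ℝ) ≤ J) (hJ' : (l'.length : ℝ) ≤ J)
    (hτ : ∀ S ∈ l, ∀ S' ∈ l', p * (S ∩ S').card ≤ τ)
    (hs : J ^ 2 * Λ * (1 + J * Λ) * τ ≤ 1 / 2) :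
    Ex p (fun w => dens p l w * dens p l' w) ≤ 2 := by
  set A : Finset Γ := l'.toFinset.biUnion id with hA
  have hJ0 : 0 ≤ J := le_trans (Nat.cast_nonneg _) hJ
  have hsub : ∀ S ∈ l', S ⊆ A := fun S hS =>
    Finset.subset_biUnion_of_mem id (List.mem_toFinset.2 hS)
  set g := p + (l'.map fun S => 1 / (S.card : ℝ)).sum with hg
  have hsum0 : 0 ≤ (l'.map fun S => 1 / (S.card : ℝ)).sum := List.sum_nonneg fun x hx => by
    obtain ⟨S', _, rfl⟩ := List.mem_map.1 hx
    positivity
  have hgp : g / p ≤ 1 + J * Λ := by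
    have : (l'.map fun S => 1 / (S.card : ℝ)).sum ≤ l'.length * (p * Λ) :=
      list_sum_le _ _ _ fun S hS => by
        have h := hΛ' S hS
        have hc : (0:ℝ) < S.card := by exact_mod_cast Finset.card_pos.2 (hl' S hS)
        rw [div_le_iff₀ (by positivity)] at h ⊢
        linarith
    have h2 : (l'.length : ℝ) * (p * Λ) ≤ J * (p * Λ) :=
      mul_le_mul_of_nonneg_right hJ' (by positivity)
    rw [div_le_iff₀ hp, hg]
    linarith
  have hc := cross_le hp h1 (A := A) (g := g) (by linarith) l hl (dens_nonneg hp h1 l')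
    (dens_dep l' hsub) (bst_dens hp h1 l' hl')
  rw [one_mul] at hc
  refine hc.trans ?_
  set x := J * Λ * (1 + J * Λ) * τ with hx
  have hx0 : 0 ≤ x := by positivity
  have h3 := list_prod_le_exp l (fun S => 1 + ((S ∩ A).card : ℝ) / S.card * (g / p))
    (fun _ => x) (by
      intro S hS
      have hc : (0:ℝ) < S.card := by exact_mod_cast Finset.card_pos.2 (hl S hS)
      have hg0 : 0 ≤ g / p := by positivity
      refine ⟨by positivity, le_trans ?_ (Real.add_one_le_exp x)⟩
      have h4 : p * ((S ∩ A).card : ℝ) ≤ J * τ := by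
        have h5 : (S ∩ A).card ≤ ∑ S' ∈ l'.toFinset, (S ∩ S').card := by
          rw [hA, Finset.inter_biUnion]
          exact Finset.card_biUnion_le
        have h6 : p * ((S ∩ A).card : ℝ) ≤ ∑ S' ∈ l'.toFinset, p * ((S ∩ S').card : ℝ) := by
          rw [← Finset.mul_sum]
          exact mul_le_mul_of_nonneg_left (by exact_mod_cast h5) hp.le
        have h7 : ∑ S' ∈ l'.toFinset, p * ((S ∩ S').card : ℝ) ≤ ∑ S' ∈ l'.toFinset, τ :=
          Finset.sum_le_sum fun S' hS' => hτ S hS S' (List.mem_toFinset.1 hS')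
        rw [Finset.sum_const, nsmul_eq_mul] at h7
        have h8 : (l'.toFinset.card : ℝ) ≤ J :=
          le_trans (by exact_mod_cast List.toFinset_card_le l') hJ'
        nlinarith
      have h9 : ((S ∩ A).card : ℝ) / S.card ≤ J * τ * Λ := by
        have e : ((S ∩ A).card : ℝ) / S.card = (p * ((S ∩ A).card : ℝ)) * (1 / (p * S.card)) := by
          field_simp
        rw [e]
        exact mul_le_mul h4 (hΛ S hS) (by positivity) (by positivity)
      have h10 := mul_le_mul h9 hgp hg0 (by positivity)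
      have e : J * τ * Λ * (1 + J * Λ) = x := by rw [hx]; ring
      linarith)
  refine h3.trans ?_
  have h4 := list_sum_le l (fun _ => x) x (fun _ _ => le_rfl)
  have h5 : (l.length : ℝ) * x ≤ 1 / 2 := by
    have : (l.length : ℝ) * x ≤ J * x := mul_le_mul_of_nonneg_right hJ hx0
    have e : J * x = J ^ 2 * Λ * (1 + J * Λ) * τ := by rw [hx]; ring
    linarith
  have h6 : Real.exp (1 / 2) ≤ 2 := by
    have h7 : Real.exp (1 / 2) * Real.exp (1 / 2) = Real.exp 1 := by
      rw [← Real.exp_add]; norm_num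
    have h8 := Real.exp_one_lt_d9
    have h9 := Real.exp_pos (1 / 2)
    nlinarith
  exact (Real.exp_le_exp.2 (h4.trans h5)).trans h6

variable {ι : Type*} [DecidableEq ι]

open Classical in
/-- Indicator that every point of `G` has a missed set. -/
noncomputable def fail (l : ι → List (Finset Γ)) (G : Finset ι) (w : Finset Γ) : ℝ :=
  if ∀ y ∈ G, ∃ S ∈ l y, Disjoint w S then 1 else 0

omit [Fintype Γ] [DecidableEq ι] in
lemma fail_nonneg (l : ι → List (Finset Γ)) (G : Finset ι) (w : Finset Γ) : 0 ≤ fail l G w := by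
  unfold fail; split_ifs <;> norm_num

omit [DecidableEq ι] in
lemma region (hp : 0 < p) (h1 : p ≤ 1) (l : ι → List (Finset Γ)) (Y : Finset ι) (hY : Y.Nonempty)
    {D : ℝ} (hl : ∀ y ∈ Y, ∀ S ∈ l y, S.Nonempty) (hD : ∀ y ∈ Y, ∀ w, dens p (l y) w ≤ D)
    (cl : ι → Finset ι) (hcl : ∀ y ∈ Y, ((cl y).card : ℝ) * D ≤ Y.card)
    (hfar : ∀ y ∈ Y, ∀ y' ∈ Y, y' ∉ cl y →
      Ex p (fun w => dens p (l y) w * dens p (l y') w) ≤ 2) :
    Ex p (fail l Y) ≤ 2 / 3 := by
  classical
  have hc : (0:ℝ) < Y.card := by exact_mod_cast Finset.card_pos.2 hY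
  set t : ℝ := 1 / (3 * Y.card) with ht
  have hD0 : 0 ≤ D := by
    obtain ⟨y, hy⟩ := hY
    exact le_trans (dens_nonneg hp h1 _ ∅) (hD y hy ∅)
  have e1 : Ex p (fail l Y) ≤ Ex p (fun w => (1 - 2 * t * ∑ y ∈ Y, dens p (l y) w) +
      t ^ 2 * ∑ y ∈ Y, ∑ y' ∈ Y, dens p (l y) w * dens p (l y') w) := by
    refine Ex_mono hp.le h1 fun w => ?_
    rw [← Finset.sum_mul_sum]
    unfold fail
    split_ifs with h
    · rw [Finset.sum_eq_zero fun y hy => dens_eq_zero _ _ (h y hy)]
      simp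
    · nlinarith [sq_nonneg (1 - t * ∑ y ∈ Y, dens p (l y) w)]
  rw [Ex_add, Ex_sub, Ex_const, Ex_mul, Ex_mul, Ex_sum, Ex_sum,
    Finset.sum_congr rfl fun y hy => Ex_dens hp (l y) (hl y hy), Finset.sum_const, nsmul_eq_mul,
    mul_one] at e1
  have e2 : ∀ y ∈ Y, Ex p (fun w => ∑ y' ∈ Y, dens p (l y) w * dens p (l y') w) ≤ 3 * Y.card := by
    intro y hy
    rw [Ex_sum]
    have h2 : ∀ y' ∈ Y, Ex p (fun w => dens p (l y) w * dens p (l y') w)
        ≤ 2 + if y' ∈ cl y then D else 0 := by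
      intro y' hy'
      split_ifs with h
      · have := Ex_mono hp.le h1 (F := fun w => dens p (l y) w * dens p (l y') w)
          (G := fun w => D * dens p (l y') w)
          fun w => mul_le_mul_of_nonneg_right (hD y hy w) (dens_nonneg hp h1 _ w)
        rw [Ex_mul, Ex_dens hp _ (hl y' hy')] at this
        linarith
      · have := hfar y hy y' hy' h
        linarith
    refine (Finset.sum_le_sum h2).trans ?_
    rw [Finset.sum_add_distrib, Finset.sum_const, nsmul_eq_mul, ← Finset.sum_filter,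
      Finset.sum_const, nsmul_eq_mul]
    have h3 : ((Y.filter fun y' => y' ∈ cl y).card : ℝ) ≤ (cl y).card := by
      exact_mod_cast Finset.card_le_card fun y' h => (Finset.mem_filter.1 h).2
    have h4 := mul_le_mul_of_nonneg_right h3 hD0
    have h5 := hcl y hy
    linarith
  have e3 := Finset.sum_le_sum e2
  rw [Finset.sum_const, nsmul_eq_mul] at e3
  have e4 := mul_le_mul_of_nonneg_left e3 (sq_nonneg t)
  have e5 : t ^ 2 * (Y.card * (3 * Y.card)) = 1 / 3 := by rw [ht]; field_simp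
  have e6 : 2 * t * Y.card = 2 / 3 := by rw [ht]; field_simp
  linarith

omit [Fintype Γ] [DecidableEq ι] in
lemma fail_dep (l : ι → List (Finset Γ)) (G : Finset ι) :
    Dep (G.biUnion fun y => (l y).toFinset.biUnion id) (fail l G) := by
  intro w w' h
  have : (∀ y ∈ G, ∃ S ∈ l y, Disjoint w S) ↔ (∀ y ∈ G, ∃ S ∈ l y, Disjoint w' S) := by
    refine forall₂_congr fun y hy => exists_congr fun S => and_congr_right fun hS => ?_
    have hsub : S ⊆ G.biUnion fun y => (l y).toFinset.biUnion id :=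
      (Finset.subset_biUnion_of_mem id (List.mem_toFinset.2 hS)).trans
        (Finset.subset_biUnion_of_mem (fun y => (l y).toFinset.biUnion id) hy)
    rw [Finset.disjoint_iff_inter_eq_empty, Finset.disjoint_iff_inter_eq_empty,
      inter_eq_of_subset hsub h]
  unfold fail
  simp only [this]

lemma greedy (hp : 0 < p) (h1 : p ≤ 1) (l : ι → List (Finset Γ)) (G : Finset ι) {g B : ℝ}
    (hB : 0 ≤ B)
    (H : ∀ G' ⊆ G, g ≤ G'.card → ∃ Y ⊆ G', ∃ Z : Finset ι, (Z.card : ℝ) ≤ B ∧
      Ex p (fail l Y) ≤ 2 / 3 ∧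
      ∀ y ∈ Y, ∀ y' ∈ G, y' ∉ Z → ∀ S ∈ l y, ∀ S' ∈ l y', Disjoint S S')
    (R : ℕ) : ∀ G' ⊆ G, g + R * B ≤ G'.card → Ex p (fail l G') ≤ (2 / 3) ^ R := by
  induction R with
  | zero =>
    intro G' _ _
    have := Ex_mono hp.le h1 (F := fail l G') (G := fun _ => 1) fun w => by
      unfold fail; split_ifs <;> norm_num
    rwa [Ex_const] at this
  | succ R ih =>
    intro G' hG' hc
    push_cast at hc
    have hRB : 0 ≤ (R:ℝ) * B := by positivity
    obtain ⟨Y, hY, Z, hZ, hf, hd⟩ := H G' hG' (by nlinarith)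
    have hc' : g + R * B ≤ (G' \ Z).card := by
      have h2 : G'.card ≤ (G' \ Z).card + Z.card := Finset.card_le_card_sdiff_add_card
      have h3 : (G'.card : ℝ) ≤ (G' \ Z).card + Z.card := by exact_mod_cast h2
      nlinarith
    have h4 := ih (G' \ Z) (Finset.sdiff_subset.trans hG') hc'
    have h5 : Ex p (fail l G') ≤ Ex p (fun w => fail l Y w * fail l (G' \ Z) w) := by
      refine Ex_mono hp.le h1 fun w => ?_
      by_cases h : ∀ y ∈ G', ∃ S ∈ l y, Disjoint w S
      · have ha : ∀ y ∈ Y, ∃ S ∈ l y, Disjoint w S := fun y hy => h y (hY hy)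
        have hb : ∀ y ∈ G' \ Z, ∃ S ∈ l y, Disjoint w S := fun y hy => h y (Finset.sdiff_subset hy)
        unfold fail
        rw [if_pos h, if_pos ha, if_pos hb, one_mul]
      · have : fail l G' w = 0 := by unfold fail; rw [if_neg h]
        rw [this]
        exact mul_nonneg (fail_nonneg _ _ _) (fail_nonneg _ _ _)
    rw [Ex_indep (p := p) ?_ (fail_dep l Y) (fail_dep l (G' \ Z))] at h5
    · have h6 := Ex_nonneg hp.le h1 (fail_nonneg l (G' \ Z))
      have h7 := mul_le_mul hf h4 h6 (by norm_num)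
      rw [pow_succ]
      linarith
    · rw [Finset.disjoint_biUnion_left]
      intro y hy
      rw [Finset.disjoint_biUnion_right]
      intro y' hy'
      rw [Finset.disjoint_biUnion_left]
      intro S hS
      rw [Finset.disjoint_biUnion_right]
      intro S' hS'
      exact hd y hy y' (hG' (Finset.mem_sdiff.1 hy').1) (Finset.mem_sdiff.1 hy').2 S
        (List.mem_toFinset.1 hS) S' (List.mem_toFinset.1 hS')

end Vale.Agent.P230
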