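import Vale.Agent.P230.Grid
import Vale.Agent.P230.Region

open MeasureTheory Set Metric
open scoped ENNReal RealInnerProductSpace

namespace Vale.Agent.P230

/-- Range of a cut. -/
def ell (n : ℕ) : ℝ := (n : ℝ) ^ 2

/-- Outer radius. -/
def rad (n : ℕ) : ℝ := 1000 * (n : ℝ) ^ 2

/-- Offset of the cuts. -/
def off (n : ℕ) : ℝ := rad n ^ 2 - ell n ^ 2

/-- Possible cuts. -/
noncomputable def uu (n : ℕ) : Finset (Zn n) := gball 0 (2 * rad n)

/-- The type of cuts. -/
abbrev Cut (n : ℕ) := {g : Zn n // g ∈ uu n}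

/-- Selection probability. -/
noncomputable def pp (n : ℕ) : ℝ := 1 / (2 * ((ell n + n) ^ n * om n))

variable {n : ℕ}

open Classical in
/-- The cuts removing `z`. -/
noncomputable def cut (z : E n) : Finset (Cut n) :=
  Finset.univ.filter fun c => ‖emb c.1‖ ^ 2 + off n < 2 * ⟪emb c.1, z⟫

/-- The ball cut by the chosen half-spaces. -/
def body (w : Finset (Cut n)) : Set (E n) :=
  {z | ‖z‖ ≤ rad n ∧ ∀ c ∈ w, 2 * ⟪emb c.1, z⟫ ≤ ‖emb c.1‖ ^ 2 + off n}

lemma mem_cut' {z : E n} {c : Cut n} : c ∈ cut z ↔ ‖emb c.1‖ ^ 2 + off n < 2 * ⟪emb c.1, z⟫ := by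
  simp [cut]

lemma mem_cut {z : E n} {c : Cut n} : c ∈ cut z ↔ ‖emb c.1 - z‖ ^ 2 < ‖z‖ ^ 2 - off n := by
  rw [mem_cut', norm_sub_sq_real]
  constructor <;> intro h <;> linarith

lemma ell_nonneg (n : ℕ) : 0 ≤ ell n := by unfold ell; positivity

lemma rad_eq (n : ℕ) : rad n = 1000 * ell n := rfl

lemma rad_nonneg (n : ℕ) : 0 ≤ rad n := by unfold rad; positivity

lemma body_eq (w : Finset (Cut n)) : body w = closedBall 0 (rad n) ∩
    ⋂ c ∈ w, {z : E n | 2 * ⟪emb c.1, z⟫ ≤ ‖emb c.1‖ ^ 2 + off n} := by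
  ext z
  simp [body]

lemma body_convex (w : Finset (Cut n)) : Convex ℝ (body w) := by
  rw [body_eq]
  refine (convex_closedBall _ _).inter (convex_iInter₂ fun c _ => ?_)
  intro x hx y hy a b ha hb hab
  simp only [mem_ofPred_eq, inner_add_right, inner_smul_right] at hx hy ⊢
  have h1 := mul_le_mul_of_nonneg_left hx ha
  have h2 := mul_le_mul_of_nonneg_left hy hb
  have h3 : a * (‖emb c.1‖ ^ 2 + off n) + b * (‖emb c.1‖ ^ 2 + off n) = ‖emb c.1‖ ^ 2 + off n := by
    rw [← add_mul, hab, one_mul]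
  linarith

lemma body_compact (w : Finset (Cut n)) : IsCompact (body w) := by
  rw [body_eq]
  refine (isCompact_closedBall _ _).inter_right (isClosed_biInter fun c _ => ?_)
  exact isClosed_le (by fun_prop) continuous_const

lemma mem_body {w : Finset (Cut n)} {z : E n} :
    z ∈ body w ↔ ‖z‖ ≤ rad n ∧ Disjoint w (cut z) := by
  simp only [body, mem_ofPred_eq, Finset.disjoint_left, mem_cut', not_lt]

lemma ball_subset_body (w : Finset (Cut n)) : closedBall 0 (ell n) ⊆ body w := by
  intro z hz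
  rw [mem_closedBall, dist_zero_right] at hz
  have h0 := ell_nonneg n
  refine mem_body.2 ⟨by rw [rad_eq]; linarith, Finset.disjoint_left.2 fun c _ hc => ?_⟩
  rw [mem_cut, off, rad_eq] at hc
  have h1 : ‖z‖ ^ 2 ≤ ell n ^ 2 := pow_le_pow_left₀ (norm_nonneg _) hz 2
  nlinarith [sq_nonneg ‖emb c.1 - z‖, sq_nonneg (ell n)]

lemma near_of_mem_cut {z : E n} (hz : ‖z‖ ≤ rad n) {c : Cut n} (hc : c ∈ cut z) :
    ‖emb c.1 - z‖ < ell n := by
  rw [mem_cut, off] at hc
  have h1 : ‖z‖ ^ 2 ≤ rad n ^ 2 := pow_le_pow_left₀ (norm_nonneg _) hz 2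
  exact lt_of_pow_lt_pow_left₀ 2 (ell_nonneg n) (by linarith)

lemma card_cuts_le {S : Finset (Cut n)} {z : E n} {r : ℝ} (hr : 0 ≤ r)
    (h : ∀ c ∈ S, ‖emb c.1 - z‖ ≤ r) : (S.card : ℝ) ≤ (r + n) ^ n * om n := by
  rw [← Finset.card_map (Function.Embedding.subtype _)]
  refine card_le_of_near (z := z) hr fun g hg => ?_
  obtain ⟨c, hc, rfl⟩ := Finset.mem_map.1 hg
  exact h c hc

lemma one_le_norm (n : ℕ) : 1 ≤ (ell n + n) ^ n * om n := by
  have := card_le_of_near (s := {0}) (z := emb (0 : Zn n)) (ell_nonneg n) (by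
    intro g hg
    rw [Finset.mem_singleton.1 hg, sub_self, norm_zero]
    exact ell_nonneg n)
  simpa using this

lemma pp_pos (n : ℕ) : 0 < pp n := by
  have := one_le_norm n
  unfold pp
  positivity

lemma pp_le_one (n : ℕ) : pp n ≤ 1 := by
  have := one_le_norm n
  unfold pp
  rw [div_le_one (by positivity)]
  linarith

lemma card_cut_le {z : E n} (hz : ‖z‖ ≤ rad n) :
    ((cut z).card : ℝ) ≤ (ell n + n) ^ n * om n :=
  card_cuts_le (ell_nonneg n) fun _ hc => (near_of_mem_cut hz hc).le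

lemma one_sub_ge_exp {x : ℝ} (h0 : 0 ≤ x) (h1 : x ≤ 1 / 2) : Real.exp (-(2 * x)) ≤ 1 - x := by
  have h2 := Real.add_one_le_exp (2 * x)
  have h3 := Real.exp_pos (2 * x)
  rw [Real.exp_neg, inv_le_iff_one_le_mul₀ h3]
  nlinarith

lemma le_card_cut (hn : 1 ≤ n) {z : E n} {x : ℝ} (hx : 0 ≤ x) (hz : ‖z‖ = rad n * (1 - x / n))
    (hs : 2000000 * x / n + 3 / n ≤ 1 / 2) :
    1 ≤ 2 * Real.exp (4000000 * x + 6) * (pp n * (cut z).card) := by
  have hn' : (1:ℝ) ≤ n := by exact_mod_cast hn
  have hn0 : (0:ℝ) < n := by linarith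
  set u := 2000000 * x / n with hu
  have hu0 : 0 ≤ u := by positivity
  have hl : 0 < ell n := by unfold ell; positivity
  have hln : ell n / n = n := by unfold ell; field_simp
  have h3 : 0 < 3 / (n:ℝ) := by positivity
  have hxn : 0 ≤ x / n := by positivity
  have hux : u = 2000000 * (x / n) := by rw [hu]; ring
  set r := ell n * (1 - u) - 2 * n with hr
  have hr' : r = ell n * (1 - u - 2 / n) := by
    rw [hr, mul_sub (ell n) (1 - u), mul_div_assoc', mul_comm (ell n) 2, mul_div_assoc, hln]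
  have h23 : 2 / (n:ℝ) ≤ 3 / n := div_le_div_of_nonneg_right (by norm_num) hn0.le
  have hr0 : 0 ≤ r := by rw [hr']; exact mul_nonneg hl.le (by linarith)
  have hzL : ‖z‖ ≤ rad n := by
    rw [hz]; nlinarith [rad_nonneg n]
  have key : r ^ n * om n ≤ (cut z).card := by
    rw [← Finset.card_map (Function.Embedding.subtype _)]
    refine le_card_of_all (z := z) hr0 fun g hg => ?_
    have hlt : ‖emb g - z‖ < ell n * (1 - u) := by rw [hr] at hg; linarith
    have hlu : ell n * (1 - u) ≤ ell n := by nlinarith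
    have hU : g ∈ uu n := by
      rw [uu, mem_gball, sub_zero]
      have : emb g = (emb g - z) + z := by abel
      rw [this]
      refine (norm_add_le _ _).trans ?_
      rw [rad_eq] at hzL ⊢
      linarith
    refine Finset.mem_map.2 ⟨⟨g, hU⟩, mem_cut.2 ?_, rfl⟩
    have h4 : ‖emb g - z‖ ^ 2 < (ell n * (1 - u)) ^ 2 :=
      pow_lt_pow_left₀ hlt (norm_nonneg _) two_ne_zero
    refine h4.trans_le ?_
    rw [hz, off, rad_eq, hux]
    have h5 : (1 - 2000000 * (x / n)) ^ 2 ≤ (1000 * (1 - x / n)) ^ 2 - (1000 ^ 2 - 1) := by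
      have : 2000000 * (x / n) ≤ 1 / 2 := by linarith
      nlinarith
    have h6 := mul_le_mul_of_nonneg_left h5 (sq_nonneg (ell n))
    nlinarith
  have h7 : Real.exp (-(2 * (u + 3 / n))) * (ell n + n) ≤ r := by
    have h8 := one_sub_ge_exp (x := u + 3 / n) (by positivity) hs
    have h9 : (1 - (u + 3 / n)) * (ell n + n) ≤ r := by
      have e : ell n + n = ell n * (1 + 1 / n) := by
        rw [mul_add, mul_one, mul_one_div, hln]
      rw [hr', e]
      have h10 : (1 - (u + 3 / n)) * (1 + 1 / n) ≤ 1 - u - 2 / n := by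
        have e3 : 3 / (n:ℝ) = 3 * (1 / n) := by ring
        have e2 : 2 / (n:ℝ) = 2 * (1 / n) := by ring
        have h11 : 0 < 1 / (n:ℝ) := by positivity
        rw [e3, e2]
        nlinarith
      nlinarith
    exact (mul_le_mul_of_nonneg_right h8 (by positivity)).trans h9
  have h10 := pow_le_pow_left₀ (by positivity) h7 n
  rw [mul_pow, ← Real.exp_nat_mul] at h10
  have e : (n:ℝ) * -(2 * (u + 3 / n)) = -(4000000 * x + 6) := by
    rw [hu]; field_simp; ring
  rw [e, Real.exp_neg, inv_mul_le_iff₀ (Real.exp_pos _)] at h10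
  have h11 := om_pos n
  have h12 := one_le_norm n
  have h13 : (ell n + n) ^ n * om n ≤ Real.exp (4000000 * x + 6) * (cut z).card := by
    have := mul_le_mul_of_nonneg_right h10 h11.le
    have h14 := mul_le_mul_of_nonneg_left key (Real.exp_pos (4000000 * x + 6)).le
    nlinarith
  have e2 : 2 * Real.exp (4000000 * x + 6) * (pp n * (cut z).card)
      = Real.exp (4000000 * x + 6) * (cut z).card / ((ell n + n) ^ n * om n) := by
    unfold pp; field_simp
  rw [e2, one_le_div (by positivity)]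
  exact h13

lemma overlap_le (hn : 1 ≤ n) {z z' : E n} (hz : ‖z‖ ≤ rad n) (hz' : ‖z'‖ ≤ rad n) {s : ℝ}
    (hs0 : 0 ≤ s) (hs1 : s ≤ 1) (hd : ell n * s ≤ ‖z - z'‖) :
    pp n * (cut z ∩ cut z').card ≤ Real.exp (1 - n * s ^ 2 / 8) := by
  have hn' : (1:ℝ) ≤ n := by exact_mod_cast hn
  have hn0 : (0:ℝ) < n := by linarith
  have hl : 0 < ell n := by unfold ell; positivity
  have hln : ell n / n = n := by unfold ell; field_simp
  have hs2 : s ^ 2 ≤ 1 := by nlinarith
  set r := ell n * (1 - s ^ 2 / 8) with hr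
  have hr0 : 0 ≤ r := mul_nonneg hl.le (by linarith)
  have key : ((cut z ∩ cut z').card : ℝ) ≤ (r + n) ^ n * om n := by
    refine card_cuts_le (z := (1 / 2 : ℝ) • (z + z')) hr0 fun c hc => ?_
    obtain ⟨h1, h2⟩ := Finset.mem_inter.1 hc
    have h3 : c ∈ cut ((1 / 2 : ℝ) • (z + z')) := by
      rw [mem_cut'] at h1 h2 ⊢
      rw [inner_smul_right, inner_add_right]
      linarith
    rw [mem_cut, off, norm_smul] at h3
    have h4 := parallelogram_law_with_norm ℝ z z'
    have h5 : ‖z‖ ^ 2 ≤ rad n ^ 2 := pow_le_pow_left₀ (norm_nonneg _) hz 2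
    have h6 : ‖z'‖ ^ 2 ≤ rad n ^ 2 := pow_le_pow_left₀ (norm_nonneg _) hz' 2
    have h7 : (ell n * s) ^ 2 ≤ ‖z - z'‖ ^ 2 := pow_le_pow_left₀ (by positivity) hd 2
    have e : ‖(1 / 2 : ℝ)‖ = 1 / 2 := by norm_num
    rw [e] at h3
    refine le_of_lt (lt_of_pow_lt_pow_left₀ 2 hr0 (h3.trans_le ?_))
    rw [hr]
    nlinarith [sq_nonneg (ell n * s ^ 2)]
  have h8 : r + n ≤ Real.exp (1 / n - s ^ 2 / 8) * ell n := by
    have h9 := Real.add_one_le_exp (1 / n - s ^ 2 / 8)
    have e : r + n = (1 / n - s ^ 2 / 8 + 1) * ell n := by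
      rw [hr, add_mul, sub_mul, one_div, inv_mul_eq_div, hln]; ring
    rw [e]
    exact mul_le_mul_of_nonneg_right h9 hl.le
  have h10 := pow_le_pow_left₀ (by positivity) h8 n
  rw [mul_pow, ← Real.exp_nat_mul] at h10
  have e : (n:ℝ) * (1 / n - s ^ 2 / 8) = 1 - n * s ^ 2 / 8 := by field_simp
  rw [e] at h10
  have h11 : ell n ^ n ≤ (ell n + n) ^ n := pow_le_pow_left₀ hl.le (by linarith) n
  have h12 := om_pos n
  have h13 := one_le_norm n
  have h14 := Real.exp_pos (1 - n * s ^ 2 / 8)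
  unfold pp
  rw [one_div, inv_mul_le_iff₀ (by positivity)]
  have h15 := mul_le_mul_of_nonneg_right (h10.trans (mul_le_mul_of_nonneg_left h11 h14.le)) h12.le
  nlinarith

lemma Ex_volume : rad n ^ n * om n / 2 ≤ Ex (pp n) (fun w : Finset (Cut n) => volume.real (body w)) := by
  let cap : Cut n → Set (E n) := fun c =>
    closedBall 0 (rad n) ∩ {z | ‖emb c.1‖ ^ 2 + off n < 2 * ⟪emb c.1, z⟫}
  have hm : ∀ c, MeasurableSet (cap c) := fun c =>
    measurableSet_closedBall.inter (isOpen_lt continuous_const (by fun_prop)).measurableSet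
  have hfin : ∀ c, volume (cap c) ≠ ⊤ := fun c =>
    ((measure_mono inter_subset_left).trans_lt measure_closedBall_lt_top).ne
  have h1 : ∀ w : Finset (Cut n), rad n ^ n * om n - ∑ c, volume.real (cap c) * ind {c} w
      ≤ volume.real (body w) := by
    intro w
    have e : ∑ c, volume.real (cap c) * ind {c} w = ∑ c ∈ w, volume.real (cap c) := by
      simp only [ind, Finset.singleton_subset_iff, mul_ite, mul_one, mul_zero]
      rw [← Finset.sum_filter, Finset.filter_mem_eq_inter, Finset.univ_inter]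
    have hs : closedBall (0 : E n) (rad n) ⊆ body w ∪ ⋃ c ∈ w, cap c := by
      intro z hz
      by_cases h : Disjoint w (cut z)
      · exact Or.inl (mem_body.2 ⟨by simpa using hz, h⟩)
      · obtain ⟨c, hc, hc'⟩ := Finset.not_disjoint_iff.1 h
        exact Or.inr (mem_biUnion hc ⟨hz, mem_cut'.1 hc'⟩)
    have h2 := measureReal_mono (μ := volume) hs (by
      refine (measure_union_lt_top (body_compact w).measure_lt_top ?_).ne
      exact (measure_biUnion_finset_le w cap).trans_lt
        (ENNReal.sum_lt_top.2 fun c _ => (hfin c).lt_top))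
    rw [real_closedBall 0 (rad_nonneg n)] at h2
    have h3 := measureReal_union_le (μ := volume) (body w) (⋃ c ∈ w, cap c)
    have h4 := measureReal_biUnion_finset_le (μ := volume) w cap
    rw [e]
    linarith
  have h2 := Ex_mono (pp_pos n).le (pp_le_one n) h1
  rw [Ex_sub, Ex_const, Ex_sum] at h2
  simp only [Ex_mul, Ex_ind, Finset.card_singleton, pow_one] at h2
  rw [← Finset.sum_mul] at h2
  have h3 : ∑ c, volume (cap c)
      ≤ ENNReal.ofReal ((ell n + n) ^ n * om n) * volume (closedBall (0 : E n) (rad n)) := by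
    simp only [← lintegral_indicator_one (hm _)]
    rw [← lintegral_finsetSum _ fun c _ => measurable_one.indicator (hm c),
      ← lintegral_indicator_const measurableSet_closedBall]
    refine lintegral_mono fun z => ?_
    by_cases hz : z ∈ closedBall (0 : E n) (rad n)
    · rw [indicator_of_mem hz]
      have e : ∑ c, (cap c).indicator (1 : E n → ℝ≥0∞) z = (cut z).card := by
        rw [Finset.card_eq_sum_ones, Nat.cast_sum, cut, Finset.sum_filter]
        refine Finset.sum_congr rfl fun c _ => ?_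
        by_cases h : ‖emb c.1‖ ^ 2 + off n < 2 * ⟪emb c.1, z⟫
        · rw [indicator_of_mem (show z ∈ cap c from ⟨hz, h⟩), if_pos h]; simp
        · rw [indicator_of_notMem (show z ∉ cap c from fun h' => h h'.2), if_neg h]
      rw [e, ← ENNReal.ofReal_natCast]
      exact ENNReal.ofReal_le_ofReal (card_cut_le (by simpa using hz))
    · rw [indicator_of_notMem hz, Finset.sum_eq_zero]
      intro c _
      exact indicator_of_notMem (show z ∉ cap c from fun h' => hz h'.1) _
  have h12 := om_pos n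
  have h13 := one_le_norm n
  have h4 : ∑ c, volume.real (cap c) ≤ (ell n + n) ^ n * om n * (rad n ^ n * om n) := by
    have := ENNReal.toReal_mono
      (ENNReal.mul_ne_top ENNReal.ofReal_ne_top measure_closedBall_lt_top.ne) h3
    rw [ENNReal.toReal_sum fun c _ => hfin c, ENNReal.toReal_mul,
      ENNReal.toReal_ofReal (by positivity)] at this
    rw [← real_closedBall 0 (rad_nonneg n)]
    exact this
  have h5 := mul_le_mul_of_nonneg_right h4 (pp_pos n).le
  have e : (ell n + n) ^ n * om n * (rad n ^ n * om n) * pp n = rad n ^ n * om n / 2 := by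
    unfold pp
    generalize (ell n + n) ^ n * om n = m at h13 ⊢
    field_simp
  linarith

end Vale.Agent.P230
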