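import Vale.Agent.P230.Body

open MeasureTheory Set Metric
open scoped ENNReal RealInnerProductSpace

namespace Vale.Agent.P230

variable {n : ℕ}

/-- Layer radii. -/
noncomputable def rk (n k : ℕ) : ℝ := rad n * (1 - (k : ℝ) / n)

open Classical in
/-- Number of centres within distance `r`. -/
noncomputable def cnt (A : Finset (Zn n)) (y : Zn n) (r : ℝ) : ℕ :=
  (A.filter fun a => ‖emb y - emb a‖ ≤ r).card

/-- A test point with no deep centre and a small weighted number of centres. -/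
def Good (A : Finset (Zn n)) (T : ℕ) (J : ℝ) (y : Zn n) : Prop :=
  cnt A y (rk n T) = 0 ∧ ∑ k ∈ Finset.range T, (cnt A y (rk n k) : ℝ) ≤ J

open Classical in
/-- The sets of cuts that have to be hit. -/
noncomputable def lst (A : Finset (Zn n)) (y : Zn n) : List (Finset (Cut n)) :=
  (A.filter fun a => ‖emb y - emb a‖ ≤ rad n).toList.map fun a => cut (emb y - emb a)

lemma mem_lst {A : Finset (Zn n)} {y : Zn n} {S : Finset (Cut n)} :
    S ∈ lst A y ↔ ∃ a ∈ A, ‖emb y - emb a‖ ≤ rad n ∧ cut (emb y - emb a) = S := by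
  simp [lst, and_assoc]

open Classical in
/-- Depth of a point. -/
noncomputable def dep (T : ℕ) (z : E n) : ℕ :=
  ((Finset.range T).filter fun k => ‖z‖ ≤ rk n k).card

lemma dep_le (T : ℕ) (z : E n) : dep T z ≤ T := by
  unfold dep
  exact (Finset.card_filter_le _ _).trans (Finset.card_range T).le

lemma cost_le (hn : 1 ≤ n) {T : ℕ} (ha : 2000000 * (T:ℝ) / n + 3 / n ≤ 1 / 2) {z : E n}
    (hz : ‖z‖ ≤ rad n) (hz' : ¬ ‖z‖ ≤ rk n T) :
    (cut z).Nonempty ∧ 1 + 1 / (pp n * (cut z).card) ≤ Real.exp (4000008 * dep T z) := by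
  have hn' : (1:ℝ) ≤ n := by exact_mod_cast hn
  have hn0 : (0:ℝ) < n := by linarith
  have hL : 0 < rad n := by unfold rad; positivity
  set x : ℝ := n * (1 - ‖z‖ / rad n) with hx
  have hx0 : 0 ≤ x := mul_nonneg hn0.le (by rw [sub_nonneg, div_le_one hL]; exact hz)
  have hzx : ‖z‖ = rad n * (1 - x / n) := by rw [hx]; field_simp; ring
  have hk : ∀ k : ℕ, ‖z‖ ≤ rk n k ↔ (k:ℝ) ≤ x := by
    intro k
    rw [hzx, rk, mul_le_mul_iff_right₀ hL, sub_le_sub_iff_left, div_le_div_iff_of_pos_right hn0]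
  have hxT : x < T := by rwa [hk, not_le] at hz'
  have hdep : ⌊x⌋₊ + 1 ≤ dep T z := by
    unfold dep
    rw [← Finset.card_range (⌊x⌋₊ + 1)]
    refine Finset.card_le_card fun k hk' => ?_
    have h1 : k ≤ ⌊x⌋₊ := Nat.lt_succ_iff.1 (Finset.mem_range.1 hk')
    have h2 : (k:ℝ) ≤ x := (Nat.le_floor_iff hx0).1 h1
    refine Finset.mem_filter.2 ⟨Finset.mem_range.2 ?_, (hk k).2 h2⟩
    exact_mod_cast h2.trans_lt hxT
  have hd1 : x ≤ dep T z := by
    have h1 := Nat.lt_floor_add_one x
    have h2 : ((⌊x⌋₊ + 1 : ℕ) : ℝ) ≤ dep T z := by exact_mod_cast hdep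
    push_cast at h2
    linarith
  have hd2 : (1:ℝ) ≤ dep T z := by exact_mod_cast le_trans (by omega) hdep
  have hs : 2000000 * x / n + 3 / n ≤ 1 / 2 := by
    have : 2000000 * x / n ≤ 2000000 * (T:ℝ) / n :=
      div_le_div_of_nonneg_right (by linarith) hn0.le
    linarith
  have h := le_card_cut hn hx0 hzx hs
  have hp := pp_pos n
  have hpos : 0 < pp n * (cut z).card := by
    by_contra hc
    have h0 : pp n * (cut z).card = 0 := 
      le_antisymm (not_lt.1 hc) (mul_nonneg hp.le (Nat.cast_nonneg _))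
    rw [h0] at h
    norm_num at h
  refine ⟨?_, ?_⟩
  · rw [← Finset.card_pos]
    have := (pos_iff_pos_of_mul_pos hpos).1 hp
    exact_mod_cast this
  · have h1 : 1 / (pp n * (cut z).card) ≤ 2 * Real.exp (4000000 * x + 6) := by
      rw [div_le_iff₀ hpos]; exact h
    have h2 : 1 ≤ Real.exp (4000000 * x + 6) := Real.one_le_exp (by positivity)
    have h3 : (3:ℝ) ≤ Real.exp 2 := by
      have := Real.add_one_le_exp 2
      linarith
    have h4 : Real.exp 2 * Real.exp (4000000 * x + 6) ≤ Real.exp (4000008 * dep T z) := by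
      rw [← Real.exp_add]
      exact Real.exp_le_exp.2 (by linarith)
    nlinarith

lemma not_deep {A : Finset (Zn n)} {T : ℕ} {J : ℝ} {y : Zn n} (h : Good A T J y) {a : Zn n}
    (ha : a ∈ A) : ¬ ‖emb y - emb a‖ ≤ rk n T := by
  have h1 := h.1
  unfold cnt at h1
  rw [Finset.card_eq_zero, Finset.filter_eq_empty_iff] at h1
  exact h1 ha

lemma sum_dep (A : Finset (Zn n)) (T : ℕ) (y : Zn n) :
    ∑ a ∈ A, (dep T (emb y - emb a) : ℝ) = ∑ k ∈ Finset.range T, (cnt A y (rk n k) : ℝ) := by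
  unfold dep cnt
  simp only [Finset.card_filter, Nat.cast_sum]
  exact Finset.sum_comm

lemma good_lst (hn : 1 ≤ n) {T : ℕ} (ha : 2000000 * (T:ℝ) / n + 3 / n ≤ 1 / 2)
    {A : Finset (Zn n)} {J : ℝ} {y : Zn n} (h : Good A T J y) :
    (∀ S ∈ lst A y, S.Nonempty ∧ 1 / (pp n * S.card) ≤ Real.exp (4000008 * T)) ∧
    ∀ w, dens (pp n) (lst A y) w ≤ Real.exp (4000008 * J) := by
  classical
  constructor
  · intro S hS
    obtain ⟨a, haA, hz, rfl⟩ := mem_lst.1 hS
    obtain ⟨h1, h2⟩ := cost_le hn ha hz (not_deep h haA)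
    refine ⟨h1, ?_⟩
    have h3 : (dep T (emb y - emb a) : ℝ) ≤ T := by exact_mod_cast dep_le T _
    have h4 : Real.exp (4000008 * dep T (emb y - emb a)) ≤ Real.exp (4000008 * T) :=
      Real.exp_le_exp.2 (by linarith)
    linarith
  · intro w
    refine (dens_le (pp_pos n) (pp_le_one n) _ w).trans ?_
    unfold lst
    rw [List.map_map]
    refine (list_prod_le_exp _ _ (fun a => 4000008 * dep T (emb y - emb a)) ?_).trans ?_
    · intro a haA
      rw [Finset.mem_toList, Finset.mem_filter] at haA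
      refine ⟨?_, (cost_le hn ha haA.2 (not_deep h haA.1)).2⟩
      have := pp_pos n
      simp only [Function.comp]
      positivity
    · rw [Finset.sum_map_toList, ← Finset.mul_sum]
      refine Real.exp_le_exp.2 (mul_le_mul_of_nonneg_left ?_ (by norm_num))
      refine le_trans ?_ h.2
      rw [← sum_dep]
      exact Finset.sum_le_sum_of_subset_of_nonneg (Finset.filter_subset _ _)
        fun _ _ _ => Nat.cast_nonneg _

lemma length_lst {T : ℕ} (hT : 1 ≤ T) {A : Finset (Zn n)} {J : ℝ} {y : Zn n} (h : Good A T J y) :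
    ((lst A y).length : ℝ) ≤ J := by
  have e : (lst A y).length = cnt A y (rk n 0) := by
    simp [lst, cnt, rk]
  rw [e]
  refine le_trans ?_ h.2
  exact Finset.single_le_sum (f := fun k => (cnt A y (rk n k) : ℝ)) (fun _ _ => Nat.cast_nonneg _)
    (Finset.mem_range.2 hT)

/-- The numerical conditions. -/
structure Par (n T N : ℕ) (J s : ℝ) : Prop where
  hn : 2 ≤ n
  hT : 1 ≤ T
  hN : 1 ≤ N
  ha : 2000000 * (T:ℝ) / n + 3 / n ≤ 1 / 2
  hs0 : 1 / (n:ℝ) ≤ s
  hs1 : s ≤ 1
  hb : J ^ 2 * Real.exp (4000008 * T) * (1 + J * Real.exp (4000008 * T)) *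
    Real.exp (1 - n * s ^ 2 / 8) ≤ 1 / 2
  hc : 8 * (N:ℝ) ^ 2 * (12 * s) ^ n * Real.exp (4000008 * J) ≤ 1
  hd : 8 * ((N:ℝ) * n ^ 2) * N ^ 2 * (1 / 250) ^ n ≤ 1
  he : 6000 * (n:ℝ) ^ 2 * (2 / 3) ^ n ≤ 1 / 16

/-- The integer points near a shifted difference of two centres. -/
noncomputable def zone (A : Finset (Zn n)) (y : Zn n) (r : ℝ) : Finset (Zn n) :=
  (A ×ˢ A).biUnion fun q => gball (emb y - emb q.1 + emb q.2) r

lemma card_zone (A : Finset (Zn n)) (y : Zn n) {r : ℝ} (hr : 0 ≤ r) {N : ℕ} (hA : A.card ≤ N) :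
    ((zone A y r).card : ℝ) ≤ N ^ 2 * ((r + n) ^ n * om n) := by
  have h1 : (zone A y r).card ≤ ∑ q ∈ A ×ˢ A, (gball (emb y - emb q.1 + emb q.2) r).card :=
    Finset.card_biUnion_le
  have h2 : ((zone A y r).card : ℝ)
      ≤ ∑ q ∈ A ×ˢ A, ((gball (emb y - emb q.1 + emb q.2) r).card : ℝ) := by exact_mod_cast h1
  have h3 := Finset.sum_le_sum (s := A ×ˢ A)
    fun q _ => card_gball_le (emb y - emb q.1 + emb q.2) hr
  rw [Finset.sum_const, nsmul_eq_mul, Finset.card_product] at h3
  have h4 : ((A.card * A.card : ℕ) : ℝ) ≤ N ^ 2 := by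
    have := Nat.mul_le_mul hA hA
    rw [sq]
    exact_mod_cast this
  have h5 := om_pos n
  exact h2.trans (h3.trans (mul_le_mul_of_nonneg_right h4 (by positivity)))

lemma far_of_notMem_zone {A : Finset (Zn n)} {y y' : Zn n} {r : ℝ} (h : y' ∉ zone A y r)
    {a a' : Zn n} (ha : a ∈ A) (ha' : a' ∈ A) : r < ‖(emb y - emb a) - (emb y' - emb a')‖ := by
  by_contra hc
  refine h (Finset.mem_biUnion.2 ⟨(a, a'), Finset.mem_product.2 ⟨ha, ha'⟩, mem_gball.2 ?_⟩)
  rw [not_lt, norm_sub_rev] at hc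
  refine le_trans (le_of_eq ?_) hc
  congr 1
  abel

lemma exists_region (hn : 2 ≤ n) {G : Finset (Zn n)} (hG : G ⊆ gball 0 (rad n))
    (hc : rad n ^ n * om n / 8 ≤ G.card) :
    ∃ w : Zn n, ∃ Y ⊆ G, (ell n / 6) ^ n * om n / 8 ≤ Y.card ∧
      ∀ y ∈ Y, ‖emb y - emb w‖ ≤ ell n := by
  classical
  have hn' : (2:ℝ) ≤ n := by exact_mod_cast hn
  have hl : 2 * (n:ℝ) ≤ ell n := by unfold ell; nlinarith
  have ho := om_pos n
  have hL : 0 < rad n := by rw [rad_eq]; linarith
  have h1 : ∀ y ∈ G, (ell n / 2) ^ n * om n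
      ≤ (((uu n).filter fun w => ‖emb y - emb w‖ ≤ ell n).card : ℝ) := by
    intro y hy
    have hy' := mem_gball.1 (hG hy)
    rw [sub_zero] at hy'
    refine le_card_of_all (z := emb y) (by linarith) fun g hg => Finset.mem_filter.2 ⟨?_, ?_⟩
    · rw [uu, mem_gball, sub_zero]
      have : emb g = (emb g - emb y) + emb y := by abel
      rw [this]
      refine (norm_add_le _ _).trans ?_
      rw [rad_eq] at hy' ⊢
      linarith
    · rw [norm_sub_rev]; linarith
  have h2 := Finset.sum_le_sum h1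
  rw [Finset.sum_const, nsmul_eq_mul] at h2
  have h3 : ∑ y ∈ G, (((uu n).filter fun w => ‖emb y - emb w‖ ≤ ell n).card : ℝ)
      = ∑ w ∈ uu n, ((G.filter fun y => ‖emb y - emb w‖ ≤ ell n).card : ℝ) := by
    simp only [Finset.card_filter, Nat.cast_sum]
    exact Finset.sum_comm
  have h4 : ((uu n).card : ℝ) ≤ (3 * rad n) ^ n * om n := by
    refine (card_gball_le 0 (by positivity)).trans (mul_le_mul_of_nonneg_right ?_ ho.le)
    refine pow_le_pow_left₀ (by positivity) ?_ n
    rw [rad_eq]; linarith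
  have hne : (uu n).Nonempty := ⟨0, by
    rw [uu, mem_gball]
    have : emb (0 : Zn n) = 0 := by ext i; simp
    rw [this, sub_zero, norm_zero]; positivity⟩
  have h5 : ∑ _w ∈ uu n, (ell n / 6) ^ n * om n / 8
      ≤ ∑ w ∈ uu n, ((G.filter fun y => ‖emb y - emb w‖ ≤ ell n).card : ℝ) := by
    rw [← h3, Finset.sum_const, nsmul_eq_mul]
    refine le_trans ?_ h2
    have hl0 : 0 ≤ ell n := ell_nonneg n
    have h6 := mul_le_mul_of_nonneg_right h4 (show 0 ≤ (ell n / 6) ^ n * om n / 8 by positivity)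
    have h7 := mul_le_mul_of_nonneg_right hc (show 0 ≤ (ell n / 2) ^ n * om n by positivity)
    have e : (3 * rad n) ^ n * (ell n / 6) ^ n = rad n ^ n * (ell n / 2) ^ n := by
      rw [← mul_pow, ← mul_pow]; congr 1; ring
    have e2 : (3 * rad n) ^ n * om n * ((ell n / 6) ^ n * om n / 8)
        = rad n ^ n * om n / 8 * ((ell n / 2) ^ n * om n) := by
      linear_combination (om n * om n / 8) * e
    linarith
  obtain ⟨w, _, hw⟩ := Finset.exists_le_of_sum_le hne h5
  exact ⟨w, _, Finset.filter_subset _ _, hw, fun y hy => (Finset.mem_filter.1 hy).2⟩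

lemma fail_le {T N : ℕ} {J s : ℝ} (P : Par n T N J s) {A : Finset (Zn n)} (hA : A.card ≤ N)
    {G : Finset (Zn n)} (hG : G ⊆ gball 0 (rad n)) (hgood : ∀ y ∈ G, Good A T J y)
    (hc : rad n ^ n * om n / 4 ≤ G.card) :
    Ex (pp n) (fail (lst A) G) ≤ (2 / 3) ^ (N * n ^ 2) := by
  have hn1 : 1 ≤ n := le_trans (by norm_num) P.hn
  have hn' : (2:ℝ) ≤ n := by exact_mod_cast P.hn
  have hl : 2 * (n:ℝ) ≤ ell n := by unfold ell; nlinarith
  have ho := om_pos n
  have hl0 : 0 < ell n := by linarith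
  have hs0 : 0 < s := lt_of_lt_of_le (by positivity) P.hs0
  refine greedy (pp_pos n) (pp_le_one n) (lst A) G (g := rad n ^ n * om n / 8)
    (B := N ^ 2 * ((4 * ell n) ^ n * om n)) (by positivity) ?_ _ G (Finset.Subset.refl _) ?_
  · intro G' hG' hc'
    obtain ⟨w, Y, hY, hYc, hYw⟩ := exists_region P.hn (hG'.trans hG) hc'
    have hYg : ∀ y ∈ Y, Good A T J y := fun y hy => hgood y (hG' (hY hy))
    refine ⟨Y, hY, zone A w (3 * ell n), ?_, ?_, ?_⟩
    · refine (card_zone A w (by positivity) hA).trans ?_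
      refine mul_le_mul_of_nonneg_left (mul_le_mul_of_nonneg_right ?_ ho.le) (by positivity)
      exact pow_le_pow_left₀ (by positivity) (by linarith) n
    · have hne : Y.Nonempty := by
        rw [← Finset.card_pos]
        have : (0:ℝ) < Y.card := lt_of_lt_of_le (by positivity) hYc
        exact_mod_cast this
      refine region (pp_pos n) (pp_le_one n) (lst A) Y hne (D := Real.exp (4000008 * J))
        (fun y hy S hS => ((good_lst hn1 P.ha (hYg y hy)).1 S hS).1)
        (fun y hy => (good_lst hn1 P.ha (hYg y hy)).2) (fun y => zone A y (ell n * s)) ?_ ?_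
      · intro y _
        have h1 := card_zone A y (r := ell n * s) (by positivity) hA
        have h2 : (n:ℝ) ≤ ell n * s := by
          have := mul_le_mul_of_nonneg_left P.hs0 hl0.le
          have e : ell n * (1 / n) = n := by unfold ell; field_simp
          linarith
        have h3 : (ell n * s + n) ^ n ≤ (ell n / 6) ^ n * (12 * s) ^ n := by
          rw [← mul_pow]
          exact pow_le_pow_left₀ (by positivity) (by linarith) n
        have h4 := mul_le_mul_of_nonneg_left (mul_le_mul_of_nonneg_right h3 ho.le)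
          (show (0:ℝ) ≤ N ^ 2 by positivity)
        have h5 := mul_le_mul_of_nonneg_right (h1.trans h4) (Real.exp_pos (4000008 * J)).le
        have h6 := mul_le_mul_of_nonneg_left P.hc
          (show 0 ≤ (ell n / 6) ^ n * om n / 8 by positivity)
        refine h5.trans (le_trans ?_ hYc)
        linarith
      · intro y hy y' hy' hfar
        have g1 := (good_lst hn1 P.ha (hYg y hy)).1
        have g2 := (good_lst hn1 P.ha (hYg y' hy')).1
        refine cross_two (pp_pos n) (pp_le_one n) _ _ (Real.exp_pos _).le (Real.exp_pos _).le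
          (fun S hS => (g1 S hS).1) (fun S hS => (g2 S hS).1) (fun S hS => (g1 S hS).2)
          (fun S hS => (g2 S hS).2) (length_lst P.hT (hYg y hy)) (length_lst P.hT (hYg y' hy'))
          ?_ P.hb
        intro S hS S' hS'
        obtain ⟨a, ha, hz, rfl⟩ := mem_lst.1 hS
        obtain ⟨a', ha', hz', rfl⟩ := mem_lst.1 hS'
        exact overlap_le hn1 hz hz' hs0.le P.hs1 (far_of_notMem_zone hfar ha ha').le
    · intro y hy y' _ hfar S hS S' hS'
      obtain ⟨a, ha, hz, rfl⟩ := mem_lst.1 hS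
      obtain ⟨a', ha', hz', rfl⟩ := mem_lst.1 hS'
      rw [Finset.disjoint_left]
      intro c hc1 hc2
      have h1 := near_of_mem_cut hz hc1
      have h2 := near_of_mem_cut hz' hc2
      have h3 := hYw y hy
      have h4 := far_of_notMem_zone hfar ha ha'
      have e : (emb w - emb a) - (emb y' - emb a') = ((emb c.1 - (emb y' - emb a'))
          - (emb c.1 - (emb y - emb a))) - (emb y - emb w) := by abel
      rw [e] at h4
      have h5 := norm_sub_le ((emb c.1 - (emb y' - emb a')) - (emb c.1 - (emb y - emb a)))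
        (emb y - emb w)
      have h6 := norm_sub_le (emb c.1 - (emb y' - emb a')) (emb c.1 - (emb y - emb a))
      linarith
  · refine le_trans ?_ hc
    have e : (4 * ell n) ^ n = rad n ^ n * (1 / 250) ^ n := by
      rw [← mul_pow, rad_eq]; congr 1; ring
    have h1 := mul_le_mul_of_nonneg_left P.hd (show 0 ≤ rad n ^ n * om n / 8 by
      have := rad_nonneg n
      positivity)
    rw [e]
    push_cast
    linarith

lemma card_small (U : Finset (Zn n)) (hU : U.Nonempty) (N : ℕ) :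
    (U.powerset.filter fun A => A.card ≤ N).card ≤ (2 * U.card) ^ N := by
  have h1 : (U.powerset.filter fun A => A.card ≤ N)
      ⊆ (Finset.range (N + 1)).biUnion fun k => U.powersetCard k := by
    intro A hA
    rw [Finset.mem_filter, Finset.mem_powerset] at hA
    exact Finset.mem_biUnion.2 ⟨A.card, Finset.mem_range.2 (by omega),
      Finset.mem_powersetCard.2 ⟨hA.1, rfl⟩⟩
  have hpos : 1 ≤ U.card := Finset.card_pos.2 hU
  have h2 : ∀ k ∈ Finset.range (N + 1), (U.powersetCard k).card ≤ U.card ^ N := by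
    intro k hk
    rw [Finset.card_powersetCard]
    exact (Nat.choose_le_pow _ _).trans
      (Nat.pow_le_pow_right hpos (Nat.lt_succ_iff.1 (Finset.mem_range.1 hk)))
  refine (Finset.card_le_card h1).trans (Finset.card_biUnion_le.trans
    ((Finset.sum_le_sum h2).trans ?_))
  rw [Finset.sum_const, Finset.card_range, smul_eq_mul, mul_pow]
  exact Nat.mul_le_mul_right _ Nat.lt_two_pow_self

open Classical in
theorem core {T N : ℕ} {J s : ℝ} (P : Par n T N J s) :
    ∃ w : Finset (Cut n), rad n ^ n * om n / 4 ≤ volume.real (body w) ∧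
      ∀ A ⊆ uu n, A.card ≤ N →
        rad n ^ n * om n / 4 ≤ ((gball 0 (rad n)).filter (Good A T J)).card →
        ∃ y ∈ gball 0 (rad n), ∀ a ∈ A, emb y - emb a ∉ body w := by
  have hn' : (2:ℝ) ≤ n := by exact_mod_cast P.hn
  have ho := om_pos n
  have hL : 0 < rad n := by unfold rad; positivity
  set v := rad n ^ n * om n with hv
  have hv0 : 0 < v := by positivity
  let G : Finset (Zn n) → Finset (Zn n) := fun A => (gball 0 (rad n)).filter (Good A T J)
  let F : Finset (Finset (Zn n)) :=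
    ((uu n).powerset.filter fun A => A.card ≤ N).filter fun A => v / 4 ≤ (G A).card
  have hne : (uu n).Nonempty := ⟨0, by
    rw [uu, mem_gball]
    have : emb (0 : Zn n) = 0 := by ext i; simp
    rw [this, sub_zero, norm_zero]; positivity⟩
  have h1 : ∀ A ∈ F, Ex (pp n) (fail (lst A) (G A)) ≤ (2 / 3) ^ (N * n ^ 2) := by
    intro A hA
    obtain ⟨h1, h2⟩ := Finset.mem_filter.1 hA
    exact fail_le P (Finset.mem_filter.1 h1).2 (Finset.filter_subset _ _)
      (fun y hy => (Finset.mem_filter.1 hy).2) h2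
  have h2 := Finset.sum_le_sum h1
  rw [Finset.sum_const, nsmul_eq_mul] at h2
  have h3 : (F.card : ℝ) ≤ (2 * (uu n).card) ^ N := by
    exact_mod_cast (Finset.card_filter_le _ _).trans (card_small (uu n) hne N)
  have h4 : ((uu n).card : ℝ) ≤ (6000 * (n:ℝ) ^ 2) ^ n := by
    refine (card_gball_le 0 (by positivity)).trans ?_
    have h5 : (2 * rad n + n) ^ n ≤ (3000 * (n:ℝ) ^ 2) ^ n :=
      pow_le_pow_left₀ (by positivity) (by unfold rad; nlinarith) n
    have h6 := mul_le_mul h5 (om_le n) ho.le (by positivity)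
    rw [← mul_pow] at h6
    refine h6.trans (le_of_eq ?_)
    congr 1; ring
  have h5 : 2 * ((uu n).card : ℝ) * (2 / 3) ^ (n ^ 2) ≤ 1 / 8 := by
    have h6 : (6000 * (n:ℝ) ^ 2 * (2 / 3) ^ n) ^ n ≤ (1 / 16) ^ n :=
      pow_le_pow_left₀ (by positivity) P.he n
    have h7 : (1 / 16 : ℝ) ^ n ≤ 1 / 16 :=
      pow_le_of_le_one (by norm_num) (by norm_num) (by have := P.hn; omega)
    rw [mul_pow, ← pow_mul, ← sq] at h6
    have h8 := mul_le_mul_of_nonneg_right h4 (show (0:ℝ) ≤ (2 / 3) ^ (n ^ 2) by positivity)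
    linarith
  have h6 : (F.card : ℝ) * (2 / 3) ^ (N * n ^ 2) ≤ 1 / 8 := by
    have h7 := mul_le_mul_of_nonneg_right h3 (show (0:ℝ) ≤ (2 / 3) ^ (N * n ^ 2) by positivity)
    rw [mul_comm N, pow_mul, ← mul_pow] at h7
    have h8 : (2 * ((uu n).card : ℝ) * (2 / 3) ^ (n ^ 2)) ^ N ≤ (1 / 8) ^ N :=
      pow_le_pow_left₀ (by positivity) h5 N
    have h9 : (1 / 8 : ℝ) ^ N ≤ 1 / 8 :=
      pow_le_of_le_one (by norm_num) (by norm_num) (by have := P.hN; omega)
    rw [mul_comm N, pow_mul]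
    linarith
  have h7 : 1 / 4 < Ex (pp n) (fun w : Finset (Cut n) =>
      (1 / v) * volume.real (body w) - ∑ A ∈ F, fail (lst A) (G A) w) := by
    rw [Ex_sub, Ex_mul, Ex_sum]
    have h8 := mul_le_mul_of_nonneg_left (Ex_volume (n := n)) (show 0 ≤ 1 / v by positivity)
    have e : 1 / v * (rad n ^ n * om n / 2) = 1 / 2 := by rw [← hv]; field_simp
    linarith
  obtain ⟨w, hw⟩ := exists_of_lt_Ex (pp_pos n).le (pp_le_one n) h7
  have h8 : 0 ≤ ∑ A ∈ F, fail (lst A) (G A) w := Finset.sum_nonneg fun A _ => fail_nonneg _ _ _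
  have h9 : volume.real (body w) ≤ v := by
    rw [hv, ← real_closedBall 0 hL.le]
    refine measureReal_mono ?_ measure_closedBall_lt_top.ne
    rw [body_eq]; exact inter_subset_left
  have h10 : 1 / v * volume.real (body w) ≤ 1 := by
    rw [one_div, inv_mul_le_iff₀ hv0]; linarith
  refine ⟨w, ?_, ?_⟩
  · have : 1 / 4 ≤ 1 / v * volume.real (body w) := by linarith
    rw [one_div v, le_inv_mul_iff₀ hv0] at this
    linarith
  · intro A hA hAN hc
    have hF : A ∈ F := Finset.mem_filter.2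
      ⟨Finset.mem_filter.2 ⟨Finset.mem_powerset.2 hA, hAN⟩, hc⟩
    have h11 := Finset.single_le_sum (f := fun A => fail (lst A) (G A) w)
      (fun A _ => fail_nonneg _ _ _) hF
    have h12 : ¬ ∀ y ∈ G A, ∃ S ∈ lst A y, Disjoint w S := by
      intro h
      have : fail (lst A) (G A) w = 1 := by unfold fail; rw [if_pos h]
      linarith
    push Not at h12
    obtain ⟨y, hy, hy'⟩ := h12
    refine ⟨y, (Finset.mem_filter.1 hy).1, fun a ha hb => ?_⟩
    obtain ⟨hb1, hb2⟩ := mem_body.1 hb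
    exact hy' _ (mem_lst.2 ⟨a, ha, hb1, rfl⟩) hb2

end Vale.Agent.P230
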