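import Vale.Agent.P230.Defs

open MeasureTheory Set Metric
open scoped ENNReal

namespace Vale.Agent.P230

/-- Integer points. -/
abbrev Zn (n : ℕ) := Fin n → ℤ

variable {n : ℕ}

/-- Embedding of the integer points. -/
def emb (g : Zn n) : E n := WithLp.toLp 2 fun i => (g i : ℝ)

@[simp] lemma emb_apply (g : Zn n) (i : Fin n) : emb g i = g i := rfl

lemma emb_sub (a b : Zn n) : emb (a - b) = emb a - emb b := by
  ext i; simp

lemma emb_add (a b : Zn n) : emb (a + b) = emb a + emb b := by
  ext i; simp

/-- Coordinatewise floor. -/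
noncomputable def flr (x : E n) : Zn n := fun i => ⌊x i⌋

lemma norm_sub_flr (x : E n) : ‖x - emb (flr x)‖ ≤ n := by
  rw [EuclideanSpace.norm_eq]
  refine Real.sqrt_le_iff.2 ⟨by positivity, ?_⟩
  have h : ∀ i ∈ (Finset.univ : Finset (Fin n)), ‖(x - emb (flr x)) i‖ ^ 2 ≤ 1 := by
    intro i _
    have h1 := Int.fract_nonneg (x i)
    have h2 := Int.fract_lt_one (x i)
    have e : (x - emb (flr x)) i = Int.fract (x i) := by
      simp [flr]
    rw [e, Real.norm_eq_abs, abs_of_nonneg h1]
    nlinarith
  refine (Finset.sum_le_sum h).trans ?_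
  simp only [Finset.sum_const, Finset.card_univ, Fintype.card_fin, nsmul_eq_mul, mul_one]
  exact_mod_cast Nat.le_self_pow two_ne_zero n

lemma volume_pi (I : Fin n → Set ℝ) (hI : ∀ i, MeasurableSet (I i)) :
    volume {x : E n | ∀ i, x i ∈ I i} = ∏ i, volume (I i) := by
  have h := (PiLp.volume_preserving_ofLp (Fin n)).measure_preimage
    (s := Set.pi univ I) (MeasurableSet.univ_pi hI).nullMeasurableSet
  rw [MeasureTheory.volume_pi_pi] at h
  rw [← h]
  congr 1
  ext x
  simp

lemma measurable_flr : Measurable (flr : E n → Zn n) := by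
  refine measurable_pi_lambda _ fun i => Int.measurable_floor.comp ?_
  fun_prop

lemma volume_cell (g : Zn n) : volume (flr ⁻¹' {g} : Set (E n)) = 1 := by
  have : (flr ⁻¹' {g} : Set (E n)) = {x : E n | ∀ i, x i ∈ Ico (g i : ℝ) (g i + 1)} := by
    ext x
    simp only [mem_preimage, mem_singleton_iff, mem_ofPred_eq, mem_Ico, funext_iff, flr,
      Int.floor_eq_iff]
  rw [this, volume_pi _ fun i => measurableSet_Ico]
  simp

lemma volume_cells (s : Finset (Zn n)) : volume (flr ⁻¹' (s : Set (Zn n)) : Set (E n)) = s.card := by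
  rw [← sum_measure_preimage_singleton s fun g _ => measurable_flr (measurableSet_singleton g)]
  simp [volume_cell]

/-- Volume of the unit ball. -/
noncomputable def om (n : ℕ) : ℝ := volume.real (ball (0 : E n) 1)

lemma om_pos (n : ℕ) : 0 < om n :=
  ENNReal.toReal_pos (measure_ball_pos volume _ one_pos).ne' measure_ball_lt_top.ne

lemma real_closedBall (z : E n) {r : ℝ} (hr : 0 ≤ r) :
    volume.real (closedBall z r) = r ^ n * om n := by
  rw [Measure.addHaar_real_closedBall volume z hr]
  simp [om]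

lemma card_le_of_near {s : Finset (Zn n)} {z : E n} {r : ℝ} (hr : 0 ≤ r)
    (h : ∀ g ∈ s, ‖emb g - z‖ ≤ r) : (s.card : ℝ) ≤ (r + n) ^ n * om n := by
  rw [← real_closedBall z (by positivity)]
  have h1 : (flr ⁻¹' (s : Set (Zn n)) : Set (E n)) ⊆ closedBall z (r + n) := by
    intro x hx
    have h2 := h _ hx
    have h3 := norm_sub_flr x
    rw [mem_closedBall, dist_eq_norm]
    have : x - z = (x - emb (flr x)) + (emb (flr x) - z) := by abel
    rw [this]
    exact (norm_add_le _ _).trans (by linarith)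
  have h2 := measureReal_mono (μ := volume) h1 measure_closedBall_lt_top.ne
  rwa [measureReal_def, volume_cells, ENNReal.toReal_natCast] at h2

lemma le_card_of_all {s : Finset (Zn n)} {z : E n} {r : ℝ} (hr : 0 ≤ r)
    (h : ∀ g, ‖emb g - z‖ ≤ r + n → g ∈ s) : r ^ n * om n ≤ s.card := by
  rw [← real_closedBall z hr]
  have h1 : closedBall z r ⊆ (flr ⁻¹' (s : Set (Zn n)) : Set (E n)) := by
    intro x hx
    refine h _ ?_
    have h3 := norm_sub_flr x
    rw [mem_closedBall, dist_eq_norm] at hx
    have : emb (flr x) - z = (x - z) - (x - emb (flr x)) := by abel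
    rw [this]
    exact (norm_sub_le _ _).trans (by linarith)
  have h2 := measureReal_mono (μ := volume) h1 (by rw [volume_cells]; simp)
  rwa [measureReal_def (s := flr ⁻¹' _), volume_cells, ENNReal.toReal_natCast] at h2

open Classical in
/-- Integer points of a closed ball. -/
noncomputable def gball (z : E n) (r : ℝ) : Finset (Zn n) :=
  (Fintype.piFinset fun i => Finset.Icc ⌊z i - r⌋ ⌈z i + r⌉).filter fun g => ‖emb g - z‖ ≤ r

lemma mem_gball {z : E n} {r : ℝ} {g : Zn n} : g ∈ gball z r ↔ ‖emb g - z‖ ≤ r := by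
  unfold gball
  rw [Finset.mem_filter, and_iff_right_iff_imp]
  intro h
  rw [Fintype.mem_piFinset]
  intro i
  have h1 : |(emb g - z) i| ≤ r := (PiLp.norm_apply_le (emb g - z) i).trans h
  simp only [PiLp.sub_apply, emb_apply, abs_le] at h1
  rw [Finset.mem_Icc]
  constructor
  · have := Int.floor_le (z i - r)
    exact_mod_cast (show ((⌊z i - r⌋ : ℤ) : ℝ) ≤ g i by linarith)
  · have := Int.le_ceil (z i + r)
    exact_mod_cast (show (g i : ℝ) ≤ ((⌈z i + r⌉ : ℤ) : ℝ) by linarith)

lemma card_gball_le (z : E n) {r : ℝ} (hr : 0 ≤ r) :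
    ((gball z r).card : ℝ) ≤ (r + n) ^ n * om n :=
  card_le_of_near hr fun _ hg => mem_gball.1 hg

lemma volume_cube {R : ℝ} (hR : 0 ≤ R) : volume (cube n R) = ENNReal.ofReal ((2 * R) ^ n) := by
  have : cube n R = {x : E n | ∀ i, x i ∈ Icc (-R) R} := by
    ext x; simp [cube, abs_le]
  rw [this, volume_pi _ fun i => measurableSet_Icc]
  simp only [Real.volume_Icc, Finset.prod_const, Finset.card_univ, Fintype.card_fin]
  rw [← ENNReal.ofReal_pow (by linarith)]
  congr 2
  ring

lemma closedBall_subset_cube (R : ℝ) : closedBall (0 : E n) R ⊆ cube n R := by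
  intro x hx i
  rw [mem_closedBall, dist_zero_right] at hx
  exact (PiLp.norm_apply_le x i).trans hx

lemma om_le (n : ℕ) : om n ≤ 2 ^ n := by
  have h1 := measureReal_mono (μ := volume) (closedBall_subset_cube (n := n) 1)
    (by rw [volume_cube zero_le_one]; simp)
  rw [real_closedBall 0 zero_le_one, measureReal_def, volume_cube zero_le_one,
    ENNReal.toReal_ofReal (by positivity)] at h1
  simpa using h1

lemma cube_bounded (R : ℝ) : Bornology.IsBounded (cube n R) := by
  refine (isBounded_closedBall (x := (0 : E n)) (r := n * |R|)).subset fun x hx => ?_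
  rw [mem_closedBall, dist_zero_right, EuclideanSpace.norm_eq]
  refine Real.sqrt_le_iff.2 ⟨by positivity, ?_⟩
  have h : ∀ i ∈ (Finset.univ : Finset (Fin n)), ‖x i‖ ^ 2 ≤ |R| ^ 2 := by
    intro i _
    have := hx i
    rw [Real.norm_eq_abs]
    exact pow_le_pow_left₀ (abs_nonneg _) (this.trans (le_abs_self R)) 2
  refine (Finset.sum_le_sum h).trans ?_
  simp only [Finset.sum_const, Finset.card_univ, Fintype.card_fin, nsmul_eq_mul, mul_pow]
  refine mul_le_mul_of_nonneg_right ?_ (by positivity)
  exact_mod_cast Nat.le_self_pow two_ne_zero n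

end Vale.Agent.P230
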