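import Vale.Agent.P230.Grid

open MeasureTheory Set Metric Filter Topology
open scoped ENNReal Pointwise

namespace Vale.Agent.P230

variable {n : ℕ}

lemma density_le {X : Set (E n)} {a D : ℝ}
    (h : ∀ R : ℝ, 0 < R → ((X ∩ cube n R).encard : ℝ≥0∞) ≤ ENNReal.ofReal (a * (2 * (R + D)) ^ n)) :
    upperDensity X ≤ ENNReal.ofReal a := by
  have h1 : Tendsto (fun R : ℝ => ENNReal.ofReal (a * (1 + D / R) ^ n)) atTop
      (𝓝 (ENNReal.ofReal a)) := by
    refine ENNReal.tendsto_ofReal ?_
    have h2 : Tendsto (fun R : ℝ => D / R) atTop (𝓝 0) := tendsto_const_nhds.div_atTop tendsto_id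
    have h3 := ((h2.const_add 1).pow n).const_mul a
    simpa using h3
  rw [← h1.limsup_eq]
  refine limsup_le_limsup ?_
  filter_upwards [eventually_gt_atTop 0] with R hR
  have hp : 0 < (2 * R) ^ n := by positivity
  rw [ENNReal.div_le_iff (by simpa using hp) ENNReal.ofReal_ne_top, mul_comm,
    ← ENNReal.ofReal_mul hp.le]
  refine (h R hR).trans (le_of_eq ?_)
  congr 1
  have e : 2 * (R + D) = 2 * R * (1 + D / R) := by field_simp
  rw [e, mul_pow]
  ring

lemma lattice_locFinite (L : Submodule ℤ (E n)) [DiscreteTopology L] [IsZLattice ℝ L] :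
    LocFinite (L : Set (E n)) := by
  intro B hB
  have h := ZSpan.setFinite_inter ((Module.Free.chooseBasis ℤ L).ofZLatticeBasis ℝ L) hB
  rwa [Module.Basis.ofZLatticeBasis_span, inter_comm] at h

lemma lattice_density (L : Submodule ℤ (E n)) [DiscreteTopology L] [IsZLattice ℝ L] :
    upperDensity (L : Set (E n)) ≤ ENNReal.ofReal (1 / ZLattice.covolume L volume) := by
  classical
  set F := ZSpan.fundamentalDomain ((Module.Free.chooseBasis ℤ L).ofZLatticeBasis ℝ L) with hF
  have hfd : IsAddFundamentalDomain L F volume :=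
    ZLattice.isAddFundamentalDomain (Module.Free.chooseBasis ℤ L) volume
  have hb : Bornology.IsBounded F := ZSpan.fundamentalDomain_isBounded _
  obtain ⟨D, hD0, hD⟩ := hb.subset_closedBall_lt 0 0
  have hc := ZLattice.covolume_eq_measure_fundamentalDomain L volume hfd
  have hpos := ZLattice.covolume_pos L volume
  have hm : MeasurableSet F := ZSpan.fundamentalDomain_measurableSet _
  have hv : ∀ g : L, g +ᵥ F = (g : E n) +ᵥ F := fun g => rfl
  refine density_le (D := D) fun R hR => ?_
  have hf := lattice_locFinite L _ (cube_bounded R)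
  have hf' : ((Subtype.val : L → E n) ⁻¹' ((L : Set (E n)) ∩ cube n R)).Finite :=
    hf.preimage Subtype.val_injective.injOn
  have e1 : ((L : Set (E n)) ∩ cube n R).encard = hf'.toFinset.card := by
    rw [← hf'.encard_eq_coe_toFinset_card, ← Subtype.val_injective.encard_image]
    congr 1
    ext x
    constructor
    · intro hx; exact ⟨⟨x, hx.1⟩, hx, rfl⟩
    · rintro ⟨g, hg, rfl⟩; exact hg
  have h1 := measure_biUnion_finset₀ (μ := volume) (s := hf'.toFinset) (f := fun g : L => g +ᵥ F)
    (fun a _ b _ hab => hfd.aedisjoint hab)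
    (fun g _ => by rw [hv]; exact (hm.const_vadd _).nullMeasurableSet)
  simp only [hv, measure_vadd, Finset.sum_const, nsmul_eq_mul] at h1
  have h2 : (⋃ g ∈ hf'.toFinset, (g : E n) +ᵥ F) ⊆ cube n (R + D) := by
    intro x hx
    obtain ⟨g, hg, y, hy, rfl⟩ := mem_iUnion₂.1 hx
    intro i
    have h3 := (hf'.mem_toFinset.1 hg).2 i
    have h4 := closedBall_subset_cube D (hD hy) i
    simp only [vadd_eq_add, PiLp.add_apply]
    exact (abs_add_le _ _).trans (add_le_add h3 h4)
  have h3 := measure_mono (μ := volume) h2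
  rw [h1, volume_cube (by linarith), ← ofReal_measureReal hb.measure_lt_top.ne, ← hc,
    ← ENNReal.ofReal_natCast, ← ENNReal.ofReal_mul (Nat.cast_nonneg _),
    ENNReal.ofReal_le_ofReal_iff (by positivity)] at h3
  rw [e1, ENat.toENNReal_coe, ← ENNReal.ofReal_natCast]
  refine ENNReal.ofReal_le_ofReal ?_
  rw [one_div, ← div_eq_inv_mul, le_div_iff₀ hpos]
  exact h3

theorem thetaT_le_thetaL (K : Set (E n)) : thetaT K ≤ thetaL K := by
  unfold thetaL
  refine le_iInf fun L => le_iInf fun h1 => le_iInf fun h2 => le_iInf fun h3 => ?_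
  unfold thetaT
  refine (iInf₂_le_of_le (L : Set (E n)) (lattice_locFinite L) (iInf_le _ h3)).trans ?_
  refine (mul_le_mul_right (lattice_density L) _).trans (le_of_eq ?_)
  rw [one_div, ENNReal.ofReal_inv_of_pos (ZLattice.covolume_pos L volume), div_eq_mul_inv]

end Vale.Agent.P230
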