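import Vale.Agent.P230.Avg

open MeasureTheory Set Metric Filter
open scoped ENNReal Pointwise

namespace Vale.Agent.P230

variable {n : ℕ}

lemma shrink_add {C : Set (E n)} (hC : Convex ℝ C) {r t : ℝ} (hr : closedBall 0 r ⊆ C)
    (ht0 : 0 < t) (ht1 : t ≤ 1) {x v : E n} (hx : x ∈ C) (hv : ‖v‖ ≤ t * r) :
    (1 - t) • x + v ∈ C := by
  have h1 : t⁻¹ • v ∈ C := by
    refine hr ?_
    rw [mem_closedBall, dist_zero_right, norm_smul, norm_inv, Real.norm_eq_abs, abs_of_pos ht0,
      inv_mul_le_iff₀ ht0]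
    exact hv
  have h2 := hC hx h1 (a := 1 - t) (b := t) (by linarith) ht0.le (by ring)
  rwa [smul_inv_smul₀ ht0.ne'] at h2

lemma count_of_density {X : Set (E n)} (hX : LocFinite X) {ρ : ℝ} (hρ : 0 ≤ ρ)
    (h : upperDensity X < ENNReal.ofReal ρ) :
    ∀ᶠ R : ℝ in atTop, ∃ s : Finset (E n), (s : Set (E n)) = X ∩ cube n R ∧
      (s.card : ℝ) ≤ ρ * (2 * R) ^ n := by
  filter_upwards [eventually_lt_of_limsup_lt h, eventually_gt_atTop 0] with R hR hR0
  have hf := hX _ (cube_bounded R)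
  refine ⟨hf.toFinset, hf.coe_toFinset, ?_⟩
  have hp : 0 < (2 * R) ^ n := by positivity
  rw [hf.encard_eq_coe_toFinset_card,
    ENNReal.div_lt_iff (Or.inl (by simpa using hp)) (Or.inl ENNReal.ofReal_ne_top),
    ← ENNReal.ofReal_mul hρ, ENat.toENNReal_coe, ← ENNReal.ofReal_natCast] at hR
  exact (ENNReal.ofReal_le_ofReal_iff (by positivity)).1 hR.le

lemma exp_half_le : Real.exp (1 / 2) ≤ 2 := by
  have h7 : Real.exp (1 / 2) * Real.exp (1 / 2) = Real.exp 1 := by
    rw [← Real.exp_add]; norm_num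
  have h8 := Real.exp_one_lt_d9
  have h9 := Real.exp_pos (1 / 2)
  nlinarith

lemma one_add_pow_le (hn : 1 ≤ n) (a : ℝ) (ha : 0 ≤ a) : (1 + a / n) ^ n ≤ Real.exp a := by
  have hn0 : (0:ℝ) < n := by exact_mod_cast hn
  have h1 := Real.add_one_le_exp (a / n)
  have h2 := pow_le_pow_left₀ (by positivity) (show 1 + a / n ≤ Real.exp (a / n) by linarith) n
  rw [← Real.exp_nat_mul] at h2
  have e : (n:ℝ) * (a / n) = a := by field_simp
  rwa [e] at h2

theorem lower_of_par {T N : ℕ} {θ s : ℝ} (hθ : 0 < θ) (P : Par n T N (48 * (60 * θ)) s)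
    (hT : T ≤ n) (hN : 4 * (60 * θ) * 3 ^ n ≤ N) (hσT : 60 * θ * Real.exp (1 - T) ≤ 1 / 8) :
    ∃ K : Set (E n), IsConvexBody K ∧ ∀ X : Set (E n), LocFinite X → K + X = univ →
      ENNReal.ofReal θ ≤ volume K * upperDensity X := by
  classical
  obtain ⟨w, hvol, hw⟩ := core P
  have hn1 : 1 ≤ n := le_trans (by norm_num) P.hn
  have hn' : (2:ℝ) ≤ n := by exact_mod_cast P.hn
  have hn0 : (0:ℝ) < n := by linarith
  have ho := om_pos n
  have hL : 0 < rad n := by unfold rad; positivity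
  have hl : 0 < ell n := by unfold ell; positivity
  set t : ℝ := 1 / n with ht
  have ht0 : 0 < t := by positivity
  have ht1 : t ≤ 1 / 2 := by rw [ht]; exact one_div_le_one_div_of_le (by norm_num) hn'
  have htl : t * ell n = n := by rw [ht]; unfold ell; field_simp
  set v := rad n ^ n * om n with hv
  have hv0 : 0 < v := by positivity
  refine ⟨(1 - t) • body w, ⟨(body_compact w).smul _, (body_convex w).smul _, ?_⟩, ?_⟩
  · refine ⟨0, mem_interior.2 ⟨ball 0 ((1 - t) * ell n), ?_, isOpen_ball,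
      mem_ball_self (mul_pos (by linarith) hl)⟩⟩
    have h1 : (1 - t) • ball (0 : E n) (ell n) = ball 0 ((1 - t) * ell n) := by
      rw [_root_.smul_ball (by linarith), smul_zero, Real.norm_eq_abs, abs_of_pos (by linarith)]
    rw [← h1]
    exact smul_set_mono (ball_subset_closedBall.trans (ball_subset_body w))
  intro X hX hcov
  by_contra hlt
  rw [not_le] at hlt
  set k := (1 - t) ^ n * volume.real (body w) with hk
  have hk1 : v / 30 ≤ k := by
    have h1 := pow_le_pow_left₀ (Real.exp_pos _).le (one_sub_ge_exp ht0.le ht1) n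
    rw [← Real.exp_nat_mul] at h1
    have e : (n:ℝ) * -(2 * t) = -2 := by rw [ht]; field_simp
    rw [e] at h1
    have h2 : 2 / 15 ≤ Real.exp (-2) := by
      have h3 : Real.exp 2 = Real.exp 1 * Real.exp 1 := by rw [← Real.exp_add]; norm_num
      have h4 := Real.exp_one_lt_d9
      have h5 := Real.exp_pos 1
      rw [Real.exp_neg, le_inv_comm₀ (by norm_num) (Real.exp_pos _), h3]
      nlinarith
    have h3 := mul_le_mul (h2.trans h1) hvol (by positivity) (pow_nonneg (by linarith) n)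
    linarith
  have hk0 : 0 < k := by linarith
  have hK : volume ((1 - t) • body w) = ENNReal.ofReal k := by
    rw [Measure.addHaar_smul, finrank_euclideanSpace_fin, abs_of_nonneg (pow_nonneg (by linarith) n),
      hk, ENNReal.ofReal_mul (pow_nonneg (by linarith) n),
      ofReal_measureReal (body_compact w).measure_lt_top.ne]
  have hd : upperDensity X < ENNReal.ofReal (θ / k) := by
    rw [hK, mul_comm] at hlt
    rw [ENNReal.ofReal_div_of_pos hk0,
      ENNReal.lt_div_iff_mul_lt (Or.inl (by simpa using hk0)) (Or.inl ENNReal.ofReal_ne_top)]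
    exact hlt
  obtain ⟨R0, hR0⟩ := eventually_atTop.1 (count_of_density hX (by positivity) hd)
  obtain ⟨m, hm⟩ := exists_nat_ge (max R0 (6 * n * rad n))
  have hm1 : R0 ≤ m := (le_max_left _ _).trans hm
  have hm2 : 6 * n * rad n ≤ m := (le_max_right _ _).trans hm
  obtain ⟨S, hS, hSc⟩ := hR0 (m + 3 * rad n) (by linarith)
  let O : Finset (Zn n) := Fintype.piFinset fun _ => Finset.Icc (-(m:ℤ)) m
  have hOc : (O.card : ℝ) = (2 * m + 1) ^ n := by
    simp only [O, Fintype.card_piFinset, Int.card_Icc, Finset.prod_const, Finset.card_univ,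
      Fintype.card_fin]
    have : ((m:ℤ) + 1 - -(m:ℤ)).toNat = 2 * m + 1 := by omega
    rw [this]
    push_cast
    rfl
  have hOne : O.Nonempty := by
    rw [← Finset.card_pos]
    have : (0:ℝ) < O.card := by rw [hOc]; positivity
    exact_mod_cast this
  have h1 : (2 * (m + 3 * rad n)) ^ n ≤ 2 * O.card := by
    have h2 : 2 * (m + 3 * rad n) ≤ (1 + (1 / 2) / n) * (2 * m + 1) := by
      have h3 : 6 * rad n ≤ m / n := by rw [le_div_iff₀ hn0]; linarith
      have e : (1 + (1 / 2) / (n:ℝ)) * (2 * m + 1) = 2 * m + m / n + 1 + (1 / 2) / n := by ring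
      have : 0 ≤ (1 / 2) / (n:ℝ) := by positivity
      linarith
    have h3 := pow_le_pow_left₀ (by positivity) h2 n
    rw [mul_pow (1 + (1 / 2) / (n:ℝ)), ← hOc] at h3
    have h4 := mul_le_mul_of_nonneg_right ((one_add_pow_le hn1 (1 / 2) (by norm_num)).trans
      exp_half_le) (Nat.cast_nonneg (α := ℝ) O.card)
    linarith
  have h2 : ((S.image flr).card : ℝ) * (rad n ^ n * om n) ≤ 60 * θ * O.card := by
    have h3 : ((S.image flr).card : ℝ) ≤ S.card := by exact_mod_cast Finset.card_image_le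
    have h4 := mul_le_mul_of_nonneg_left h1 (show 0 ≤ θ / k by positivity)
    have h5 : ((S.image flr).card : ℝ) ≤ θ / k * (2 * O.card) := by linarith
    rw [div_mul_eq_mul_div, le_div_iff₀ hk0] at h5
    have h6 := mul_le_mul_of_nonneg_left hk1 (Nat.cast_nonneg (α := ℝ) (S.image flr).card)
    rw [← hv]
    linarith
  obtain ⟨o, ho', hc1, hc2⟩ := exists_window hn1 hT (by positivity) hN hσT (S.image flr) O hOne h2
  obtain ⟨y, hy, hy'⟩ := hw _ (loc_subset _ o) hc1 hc2
  have hmem : emb (o + y) ∈ (1 - t) • body w + X := by rw [hcov]; trivial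
  obtain ⟨_, ⟨z, hz, rfl⟩, x, hx, hzx⟩ := hmem
  simp only at hzx
  have hyL := mem_gball.1 hy
  rw [sub_zero] at hyL
  have hzL := (mem_body.1 hz).1
  have hzL' : ‖(1 - t) • z‖ ≤ rad n := by
    rw [norm_smul, Real.norm_eq_abs, abs_of_pos (by linarith)]
    nlinarith [norm_nonneg z]
  have hxS : x ∈ S := by
    rw [← Finset.mem_coe, hS]
    refine ⟨hx, fun i => ?_⟩
    have e : x = emb o + (emb y - (1 - t) • z) := by
      rw [← add_sub_assoc, ← emb_add, ← hzx]; abel
    have h3 : |(emb y - (1 - t) • z) i| ≤ 2 * rad n :=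
      (PiLp.norm_apply_le (emb y - (1 - t) • z) i).trans ((norm_sub_le _ _).trans (by linarith))
    have h4 := Finset.mem_Icc.1 (Fintype.mem_piFinset.1 ho' i)
    have h5 : |(emb o) i| ≤ m := by
      rw [emb_apply, abs_le]
      have g1 : -(m:ℝ) ≤ ((o i : ℤ) : ℝ) := by exact_mod_cast h4.1
      have g2 : ((o i : ℤ) : ℝ) ≤ (m:ℝ) := by exact_mod_cast h4.2
      exact ⟨g1, g2⟩
    rw [e, PiLp.add_apply]
    exact (abs_add_le _ _).trans (by linarith)
  have hb : emb (o + y) - emb (flr x) ∈ body w := by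
    have := shrink_add (body_convex w) (ball_subset_body w) ht0 (by linarith) hz
      (v := x - emb (flr x)) (by rw [htl]; exact norm_sub_flr x)
    rwa [← add_sub_assoc, hzx] at this
  refine hy' (flr x - o) (Finset.mem_image.2 ⟨flr x, Finset.mem_filter.2
    ⟨Finset.mem_image_of_mem _ hxS, ?_⟩, rfl⟩) ?_
  · have e : emb o - emb (flr x) = (emb (o + y) - emb (flr x)) - emb y := by
      rw [emb_add]; abel
    rw [e]
    have := (mem_body.1 hb).1
    exact (norm_sub_le _ _).trans (by linarith)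
  · have e : emb y - emb (flr x - o) = emb (o + y) - emb (flr x) := by
      rw [emb_add, emb_sub]; abel
    rw [e]
    exact hb

lemma sq_mul_pow_le {q : ℝ} (h0 : 0 ≤ q) (h1 : q ≤ 3 / 4) (hn : (1000000000:ℝ) ≤ n) :
    (n:ℝ) ^ 2 * q ^ n ≤ 1 / 1000000 := by
  have h2 : q ≤ Real.exp (-(1 / 4)) := by
    have := Real.add_one_le_exp (-(1 / 4))
    linarith
  have h3 := pow_le_pow_left₀ h0 h2 n
  rw [← Real.exp_nat_mul] at h3
  have h4 := Real.pow_div_factorial_le_exp (n / 4) (by positivity) 3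
  have e : (n:ℝ) * -(1 / 4) = -(n / 4) := by ring
  rw [e, Real.exp_neg] at h3
  have h5 : ((Nat.factorial 3 : ℕ) : ℝ) = 6 := by norm_num [Nat.factorial]
  rw [h5] at h4
  have h6 := Real.exp_pos (n / 4)
  have h7 : (n:ℝ) ^ 2 * (Real.exp (n / 4))⁻¹ ≤ 1 / 1000000 := by
    rw [← div_eq_mul_inv, div_le_iff₀ h6]
    have : (n:ℝ) ^ 2 * 1000000000 ≤ n ^ 2 * n := mul_le_mul_of_nonneg_left hn (by positivity)
    nlinarith
  exact (mul_le_mul_of_nonneg_left h3 (by positivity)).trans h7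

/-- The constant of the lower bound. -/
noncomputable def cc : ℝ := 1 / (8 * 2880 * 4000008)

lemma cc_pos : 0 < cc := by unfold cc; norm_num

theorem lower (hn : (3000000000:ℝ) ≤ Real.log n) :
    ∃ K : Set (E n), IsConvexBody K ∧ ∀ X : Set (E n), LocFinite X → K + X = univ →
      ENNReal.ofReal (cc * n * Real.log n) ≤ volume K * upperDensity X := by
  set u := Real.log n with hu
  have hu0 : 0 < u := by linarith
  have hn0 : (0:ℝ) < n := by
    rcases Nat.eq_zero_or_pos n with rfl | h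
    · simp at hu; linarith
    · exact_mod_cast h
  have hnu : Real.exp u = n := Real.exp_log hn0
  have hn2 : u ^ 2 / 2 ≤ n := by
    have := Real.quadratic_le_exp_of_nonneg hu0.le
    linarith
  have hun : u ≤ n := by
    have := Real.add_one_le_exp u
    linarith
  have hn9 : (1000000000:ℝ) ≤ n := by linarith
  set T := ⌈3 * u⌉₊ with hT
  have hT1 : 3 * u ≤ T := Nat.le_ceil _
  have hT2 : (T:ℝ) ≤ 3 * u + 1 := (Nat.ceil_lt_add_one (by positivity)).le
  set θ := cc * n * u with hθ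
  have hθ0 : 0 < θ := by have := cc_pos; positivity
  have hJ : 48 * (60 * θ) ≤ (n:ℝ) ^ 2 := by
    have : n * u ≤ n * n := mul_le_mul_of_nonneg_left hun hn0.le
    have h2 : 0 ≤ n * u := by positivity
    rw [hθ]; unfold cc; nlinarith
  have hJ2 : 4000008 * (48 * (60 * θ)) = n * (u / 8) := by rw [hθ]; unfold cc; ring
  have hTn : (T:ℝ) ≤ n := by nlinarith
  refine lower_of_par (T := T) (N := 4 ^ n) (s := Real.exp (-(u / 4))) hθ0 ⟨?_, ?_, ?_, ?_, ?_, ?_,
    ?_, ?_, ?_, ?_⟩ (by exact_mod_cast hTn) ?_ ?_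
  · exact_mod_cast (show (2:ℝ) ≤ n by linarith)
  · exact_mod_cast (show (1:ℝ) ≤ T by linarith)
  · exact Nat.one_le_pow _ _ (by norm_num)
  · rw [← add_div, div_le_iff₀ hn0]
    nlinarith
  · rw [one_div, ← hnu, ← Real.exp_neg]
    exact Real.exp_le_exp.2 (by linarith)
  · exact Real.exp_le_one_iff.2 (by linarith)
  · set Λ := Real.exp (4000008 * T) with hΛ
    have hΛ1 : 1 ≤ Λ := Real.one_le_exp (by positivity)
    have e1 : (n:ℝ) * Real.exp (-(u / 4)) ^ 2 = Real.exp (u / 2) := by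
      rw [← hnu, ← Real.exp_nat_mul, ← Real.exp_add]; congr 1; push_cast; ring
    rw [e1]
    have h1 : 1 + 48 * (60 * θ) * Λ ≤ 2 * ((n:ℝ) ^ 2 * Λ) := by
      have h2 := mul_le_mul_of_nonneg_right hJ (show 0 ≤ Λ by linarith)
      have h3 : 1 ≤ (n:ℝ) ^ 2 * Λ := one_le_mul_of_one_le_of_one_le (by nlinarith) hΛ1
      linarith
    have h2 : (48 * (60 * θ)) ^ 2 ≤ ((n:ℝ) ^ 2) ^ 2 := pow_le_pow_left₀ (by positivity) hJ 2
    have h3 : (48 * (60 * θ)) ^ 2 * Λ * (1 + 48 * (60 * θ) * Λ)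
        ≤ ((n:ℝ) ^ 2) ^ 2 * Λ * (2 * ((n:ℝ) ^ 2 * Λ)) :=
      mul_le_mul (mul_le_mul_of_nonneg_right h2 (by linarith)) h1 (by positivity) (by positivity)
    have e2 : ((n:ℝ) ^ 2) ^ 2 * Λ * (2 * ((n:ℝ) ^ 2 * Λ)) * Real.exp (1 - Real.exp (u / 2) / 8)
        = 2 * Real.exp (6 * u + 2 * (4000008 * T) + (1 - Real.exp (u / 2) / 8)) := by
      have e3 : Real.exp (6 * u) = (n:ℝ) ^ 6 := by
        rw [← hnu, ← Real.exp_nat_mul]; norm_num
      have e4 : Real.exp (2 * (4000008 * T)) = Λ ^ 2 := by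
        rw [hΛ, ← Real.exp_nat_mul]; norm_num
      rw [Real.exp_add, Real.exp_add, e3, e4]
      ring
    have h4 : 6 * u + 2 * (4000008 * T) + (1 - Real.exp (u / 2) / 8) ≤ -3 := by
      have := Real.quadratic_le_exp_of_nonneg (show 0 ≤ u / 2 by linarith)
      nlinarith
    have h5 : Real.exp (-3) ≤ 1 / 4 := by
      have := Real.add_one_le_exp 3
      rw [Real.exp_neg, inv_le_comm₀ (Real.exp_pos _) (by norm_num)]
      linarith
    have h6 := mul_le_mul_of_nonneg_right h3 (Real.exp_pos (1 - Real.exp (u / 2) / 8)).le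
    have h7 := (Real.exp_le_exp.2 h4).trans h5
    linarith
  · rw [hJ2, Real.exp_nat_mul]
    have e : 8 * (((4 ^ n : ℕ) : ℝ)) ^ 2 * (12 * Real.exp (-(u / 4))) ^ n * Real.exp (u / 8) ^ n
        = 8 * (192 * Real.exp (-(u / 8))) ^ n := by
      have e1 : Real.exp (-(u / 8)) = Real.exp (-(u / 4)) * Real.exp (u / 8) := by
        rw [← Real.exp_add]; congr 1; ring
      have e2 : (((4 ^ n : ℕ) : ℝ)) ^ 2 = 16 ^ n := by
        push_cast
        rw [← pow_mul, mul_comm, pow_mul]; norm_num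
      rw [e1, e2, show (192:ℝ) = 16 * 12 by norm_num]
      simp only [mul_pow]
      ring
    rw [e]
    have h1 : 192 * Real.exp (-(u / 8)) ≤ 1 / 8 := by
      have := Real.add_one_le_exp (u / 8)
      rw [Real.exp_neg, ← div_eq_mul_inv, div_le_iff₀ (Real.exp_pos _)]
      linarith
    have h2 := pow_le_pow_left₀ (by positivity) h1 n
    have h3 : (1 / 8 : ℝ) ^ n ≤ 1 / 8 :=
      pow_le_of_le_one (by norm_num) (by norm_num) (by
        rintro rfl
        simp at hn0)
    linarith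
  · have e : 8 * ((((4 ^ n : ℕ) : ℝ)) * n ^ 2) * (((4 ^ n : ℕ) : ℝ)) ^ 2 * (1 / 250) ^ n
        = 8 * ((n:ℝ) ^ 2 * (64 / 250) ^ n) := by
      push_cast
      rw [show (64 / 250 : ℝ) = 4 * 4 * 4 * (1 / 250) by norm_num]
      simp only [mul_pow]
      ring
    rw [e]
    have := sq_mul_pow_le (q := 64 / 250) (by norm_num) (by norm_num) hn9
    linarith
  · have := sq_mul_pow_le (q := 2 / 3) (by norm_num) (by norm_num) hn9
    linarith
  · have h1 := sq_mul_pow_le (q := 3 / 4) (by norm_num) (by norm_num) hn9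
    rw [div_pow, ← mul_div_assoc, div_le_iff₀ (by positivity)] at h1
    have h2 := mul_le_mul_of_nonneg_right hJ (show (0:ℝ) ≤ 3 ^ n by positivity)
    have h3 : (0:ℝ) ≤ 4 ^ n := by positivity
    have h4 : 0 ≤ θ * 3 ^ n := by positivity
    push_cast
    linarith
  · have h1 : Real.exp (1 - T) ≤ Real.exp 1 * (Real.exp u ^ 3)⁻¹ := by
      rw [← Real.exp_nat_mul, ← Real.exp_neg, ← Real.exp_add]
      exact Real.exp_le_exp.2 (by push_cast; linarith)
    rw [hnu] at h1
    have h2 := Real.exp_one_lt_d9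
    have h3 : 60 * θ ≤ (n:ℝ) ^ 2 := by linarith
    have h4 := mul_le_mul h3 h1 (Real.exp_pos _).le (by positivity)
    refine h4.trans ?_
    have e : (n:ℝ) ^ 2 * (Real.exp 1 * ((n:ℝ) ^ 3)⁻¹) = Real.exp 1 / n := by field_simp
    rw [e, div_le_iff₀ hn0]
    linarith

end Vale.Agent.P230
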