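import Vale.Agent.P230.Upper

open MeasureTheory Set Metric Filter Topology
open scoped ENNReal Pointwise

namespace Vale.Agent.P230

variable {n : ℕ}

lemma card_le_of_cube {s : Finset (Zn n)} {z : E n} {r : ℝ} (hr : 0 ≤ r)
    (h : ∀ g ∈ s, emb g - z ∈ cube n r) : (s.card : ℝ) ≤ (2 * (r + 1)) ^ n := by
  have h1 : (flr ⁻¹' (s : Set (Zn n)) : Set (E n)) ⊆ tr z 1 (cube n (r + 1)) := by
    intro x hx
    refine mem_tr.2 ⟨x - z, fun i => ?_, by simp⟩
    have h2 := h _ hx i
    have h3 := Int.floor_le (x i)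
    have h4 := Int.lt_floor_add_one (x i)
    simp only [PiLp.sub_apply, emb_apply, flr, abs_le] at h2 ⊢
    constructor <;> linarith [h2.1, h2.2]
  have h2 := measureReal_mono (μ := volume) h1 (by
    rw [volume_tr]; exact ENNReal.mul_ne_top ENNReal.ofReal_ne_top (cube_ne_top _))
  rw [real_tr, real_cube (by linarith), measureReal_def, volume_cells,
    ENNReal.toReal_natCast] at h2
  simpa using h2

lemma finite_grid {B : Set (E n)} (hB : Bornology.IsBounded B) (z : E n) :
    {g : Zn n | emb g - z ∈ B}.Finite := by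
  obtain ⟨D, hD⟩ := hB.subset_closedBall 0
  refine (gball z D).finite_toSet.subset fun g hg => ?_
  rw [Finset.mem_coe, mem_gball]
  simpa using hD hg

lemma periodize {K : Set (E n)} {r : ℝ} (hr : 0 < r) (X : Finset (E n))
    (h : ∀ y ∈ cube n r, ∃ x ∈ X, ∃ k ∈ K, x + k = y) :
    thetaT K ≤ volume K * ENNReal.ofReal (X.card / (2 * r) ^ n) := by
  classical
  set P := 2 * r with hP
  have hP0 : 0 < P := by positivity
  let Y : Set (E n) := {y | ∃ x ∈ X, ∃ g : Zn n, x + P • emb g = y}
  have key : ∀ R : ℝ, 0 < R → ∃ s : Finset (E n), Y ∩ cube n R ⊆ s ∧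
      (s.card : ℝ) ≤ X.card / P ^ n * (2 * (R + P)) ^ n := by
    intro R hR
    let t : E n → Finset (Zn n) := fun x =>
      (finite_grid (cube_bounded (R / P)) (-(P⁻¹ • x))).toFinset
    refine ⟨X.biUnion fun x => (t x).image fun g => x + P • emb g, ?_, ?_⟩
    · rintro _ ⟨⟨x, hx, g, rfl⟩, hy⟩
      refine Finset.mem_coe.2 (Finset.mem_biUnion.2 ⟨x, hx, Finset.mem_image.2 ⟨g, ?_, rfl⟩⟩)
      simp only [t, Finite.mem_toFinset, mem_ofPred_eq]
      intro i
      have h1 := hy i
      have e : (emb g - -(P⁻¹ • x)) i = (x + P • emb g) i / P := by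
        simp only [PiLp.sub_apply, PiLp.neg_apply, PiLp.smul_apply, PiLp.add_apply, smul_eq_mul]
        field_simp
        ring
      rw [e, abs_div, abs_of_pos hP0]
      exact div_le_div_of_nonneg_right h1 hP0.le
    · have h1 : ∀ x ∈ X, ((((t x).image fun g => x + P • emb g).card : ℕ) : ℝ)
          ≤ (2 * (R / P + 1)) ^ n := by
        intro x _
        refine le_trans (by exact_mod_cast Finset.card_image_le) (card_le_of_cube
          (s := t x) (z := -(P⁻¹ • x)) (by positivity) fun g hg => ?_)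
        simpa only [t, Finite.mem_toFinset, mem_ofPred_eq] using hg
      have h2 := Finset.sum_le_sum h1
      rw [Finset.sum_const, nsmul_eq_mul] at h2
      have h3 : (((X.biUnion fun x => (t x).image fun g => x + P • emb g).card : ℕ) : ℝ)
          ≤ ∑ x ∈ X, ((((t x).image fun g => x + P • emb g).card : ℕ) : ℝ) := by
        exact_mod_cast Finset.card_biUnion_le
      refine h3.trans (h2.trans (le_of_eq ?_))
      have e : 2 * (R / P + 1) = 2 * (R + P) / P := by field_simp
      rw [e, div_pow]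
      ring
  have hloc : LocFinite Y := by
    intro B hB
    obtain ⟨D, hD0, hD⟩ := hB.subset_closedBall_lt 0 0
    obtain ⟨s, hs, _⟩ := key D hD0
    exact s.finite_toSet.subset
      ((inter_subset_inter_right _ (hD.trans (closedBall_subset_cube D))).trans hs)
  have hcov : K + Y = univ := by
    refine eq_univ_of_forall fun y => ?_
    let g : Zn n := fun i => ⌊(y i + r) / P⌋
    obtain ⟨x, hx, k, hk, e⟩ := h (y - P • emb g) fun i => by
      have h1 := Int.floor_le ((y i + r) / P)
      have h2 := Int.lt_floor_add_one ((y i + r) / P)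
      rw [le_div_iff₀ hP0] at h1
      rw [div_lt_iff₀ hP0] at h2
      simp only [PiLp.sub_apply, PiLp.smul_apply, emb_apply, smul_eq_mul, g, abs_le]
      constructor <;> linarith
    refine ⟨k, hk, x + P • emb g, ⟨x, hx, g, rfl⟩, ?_⟩
    show k + (x + P • emb g) = y
    rw [← add_assoc, add_comm k, e]; abel
  have hd : upperDensity Y ≤ ENNReal.ofReal (X.card / P ^ n) := by
    refine density_le (D := P) fun R hR => ?_
    obtain ⟨s, hs, hc⟩ := key R hR
    refine le_trans ?_ (ENNReal.ofReal_le_ofReal hc)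
    rw [ENNReal.ofReal_natCast, ← ENat.toENNReal_coe, ← encard_coe_eq_coe_finsetCard]
    exact ENat.toENNReal_le.2 (encard_le_encard hs)
  unfold thetaT
  exact (iInf₂_le_of_le Y hloc (iInf_le _ hcov)).trans (mul_le_mul_right hd _)

theorem upper (hn : 3 ≤ n) {K : Set (E n)} (hK : IsConvexBody K) :
    thetaT K ≤ ENNReal.ofReal (45 * n * Real.log n) := by
  classical
  obtain ⟨h1, h2, h3⟩ := hK
  have hn' : (3:ℝ) ≤ n := by exact_mod_cast hn
  have hn0 : (0:ℝ) < n := by linarith
  have hv : 0 < volume.real K := ENNReal.toReal_pos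
    (Measure.measure_pos_of_nonempty_interior volume h3).ne' h1.measure_lt_top.ne
  obtain ⟨c, hc⟩ := exists_center (by omega) h1 h2 (h3.mono interior_subset)
  set a : ℝ := n / (n + 1) with ha
  have ha0 : 0 < a := by positivity
  have hv0 : volume.real (tr (-(a • c)) a K) = a ^ n * volume.real K := by
    rw [real_tr, abs_of_pos ha0]
  have hav : volume.real K ≤ 3 * (a ^ n * volume.real K) := by
    have g1 := one_add_pow_le (n := n) (by omega) 1 zero_le_one
    have g2 := Real.exp_one_lt_d9
    have e : (1 + 1 / (n:ℝ)) ^ n * a ^ n = 1 := by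
      rw [← mul_pow, ha]
      have : (1 + 1 / (n:ℝ)) * (n / (n + 1)) = 1 := by field_simp
      rw [this, one_pow]
    have g3 : 1 ≤ 3 * a ^ n := by
      have := mul_le_mul_of_nonneg_right (show (1 + 1 / (n:ℝ)) ^ n ≤ 3 by linarith)
        (pow_nonneg ha0.le n)
      linarith
    nlinarith
  obtain ⟨r, hr, X, hX, hcov⟩ := cover_cube hn (tr_compact (-(a • c)) a h1)
    (by rw [hv0]; positivity) (by
      intro k hk
      obtain ⟨x, hx, rfl⟩ := mem_tr.1 hk
      obtain ⟨k, hk, e⟩ := hc x hx
      refine mem_tr.2 ⟨k, hk, ?_⟩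
      have e1 : a • k = c - (1 / ((n:ℝ) + 1)) • x := by rw [← e]; abel
      rw [e1]
      ext i
      simp only [PiLp.add_apply, PiLp.neg_apply, PiLp.smul_apply, PiLp.sub_apply, smul_eq_mul, ha]
      field_simp
      ring)
  refine (periodize (K := K) hr (X.image fun x => x - c) ?_).trans ?_
  · intro y hy
    obtain ⟨x, hx, _, g1, _, g2, e⟩ := hcov y hy
    obtain ⟨k, hk, rfl⟩ := mem_tr.1 g1
    obtain ⟨k', hk', rfl⟩ := mem_tr.1 g2
    refine ⟨x - c, Finset.mem_image_of_mem _ hx, a • k + (1 / ((n:ℝ) + 1)) • k',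
      h2 hk hk' ha0.le (by positivity) (by rw [ha]; field_simp), ?_⟩
    rw [← e]
    ext i
    simp only [PiLp.add_apply, PiLp.neg_apply, PiLp.smul_apply, PiLp.sub_apply, smul_eq_mul, ha]
    field_simp
    ring
  · rw [← ofReal_measureReal h1.measure_lt_top.ne, ← ENNReal.ofReal_mul hv.le]
    refine ENNReal.ofReal_le_ofReal ?_
    have g1 : (((X.image fun x => x - c).card : ℕ) : ℝ) ≤ X.card := by
      exact_mod_cast Finset.card_image_le
    rw [← mul_div_assoc, div_le_iff₀ (by positivity)]
    rw [hv0] at hX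
    have g2 := mul_le_mul hav g1 (Nat.cast_nonneg _) (by positivity)
    linarith

end Vale.Agent.P230
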