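import Vale.Agent.P230.Bern

open Finset

namespace Vale.Agent.P230

variable {Γ : Type*} [Fintype Γ] [DecidableEq Γ] {p : ℝ}

/-- Density after adding a uniform point of `S` when the configuration misses `S`. -/
noncomputable def step (p : ℝ) (S : Finset Γ) (Z : Finset Γ → ℝ) (w : Finset Γ) : ℝ :=
  (if Disjoint w S then 0 else Z w) +
    ∑ c ∈ S, if w ∩ S = {c} then (1 - p) / (p * S.card) * Z (w.erase c) else 0

/-- The Markov operator dual to `step`. -/
noncomputable def mk (S : Finset Γ) (F : Finset Γ → ℝ) (w : Finset Γ) : ℝ :=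
  if Disjoint w S then ∑ c ∈ S, (1 / (S.card : ℝ)) * F (insert c w) else F w

/-- The density obtained from a list of sets. -/
noncomputable def dens (p : ℝ) : List (Finset Γ) → Finset Γ → ℝ
  | [] => fun _ => 1
  | S :: l => step p S (dens p l)

lemma Ex_step (hp : 0 < p) (S : Finset Γ) (Z F : Finset Γ → ℝ) :
    Ex p (fun w => step p S Z w * F w) = Ex p (fun w => Z w * mk S F w) := by
  have h1 : ∀ c ∈ S, Ex p (fun w => (if w ∩ S = {c} then
        (1 - p) / (p * S.card) * Z (w.erase c) else 0) * F w)
      = Ex p (fun w => if Disjoint w S then Z w * ((1 / (S.card : ℝ)) * F (insert c w)) else 0) := by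
    intro c hc
    have hS : (0:ℝ) < S.card := by exact_mod_cast Finset.card_pos.2 ⟨c, hc⟩
    have hk := Ex_key (p := p) c
      (fun w => if Disjoint w S then Z w * ((1 / (S.card : ℝ)) * F (insert c w)) else 0)
    have e1 : Ex p (fun w => if c ∈ w then (0:ℝ) else
        if Disjoint w S then Z w * ((1 / (S.card : ℝ)) * F (insert c w)) else 0)
        = Ex p (fun w => if Disjoint w S then Z w * ((1 / (S.card : ℝ)) * F (insert c w)) else 0) := by
      refine Ex_congr fun w => ?_
      by_cases h : c ∈ w
      · have : ¬ Disjoint w S := Finset.not_disjoint_iff.2 ⟨c, h, hc⟩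
        simp [h, this]
      · simp [h]
    rw [e1] at hk
    have e2 : Ex p (fun w => (if w ∩ S = {c} then
        (1 - p) / (p * S.card) * Z (w.erase c) else 0) * F w)
        = (1 - p) / p * Ex p (fun w => if c ∈ w then (if Disjoint (w.erase c) S then
          Z (w.erase c) * ((1 / (S.card : ℝ)) * F (insert c (w.erase c))) else 0) else 0) := by
      rw [← Ex_mul]
      refine Ex_congr fun w => ?_
      by_cases h : w ∩ S = {c}
      · have hw : c ∈ w := by
          have : c ∈ w ∩ S := by rw [h]; simp
          exact (Finset.mem_inter.1 this).1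
        have hd : Disjoint (w.erase c) S := by
          rw [Finset.disjoint_left]
          intro x hx hxS
          have : x ∈ w ∩ S := Finset.mem_inter.2 ⟨Finset.mem_of_mem_erase hx, hxS⟩
          rw [h, Finset.mem_singleton] at this
          exact (Finset.mem_erase.1 hx).1 this
        simp only [h, hw, hd, if_true, Finset.insert_erase hw]
        field_simp
      · by_cases hw : c ∈ w
        · have hd : ¬ Disjoint (w.erase c) S := by
            intro hd
            apply h
            ext x
            simp only [Finset.mem_inter, Finset.mem_singleton]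
            constructor
            · rintro ⟨h1, h2⟩
              by_contra hx
              exact Finset.disjoint_left.1 hd (Finset.mem_erase.2 ⟨hx, h1⟩) h2
            · rintro rfl; exact ⟨hw, hc⟩
          simp [h, hw, hd]
        · simp [h, hw]
    rw [e2, div_mul_eq_mul_div, hk]
    field_simp
  unfold step mk
  simp only [add_mul, Finset.sum_mul]
  rw [Ex_add, Ex_sum, Finset.sum_congr rfl h1, ← Ex_sum, ← Ex_add]
  refine Ex_congr fun w => ?_
  by_cases h : Disjoint w S
  · simp [h, Finset.mul_sum]
  · simp [h]

omit [Fintype Γ] in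
lemma step_nonneg (hp : 0 < p) (h1 : p ≤ 1) (S : Finset Γ) {Z : Finset Γ → ℝ} (hZ : ∀ w, 0 ≤ Z w)
    (w : Finset Γ) : 0 ≤ step p S Z w := by
  unfold step
  have : 0 ≤ 1 - p := by linarith
  refine add_nonneg ?_ (Finset.sum_nonneg fun c _ => ?_)
  · split_ifs
    · exact le_rfl
    · exact hZ w
  · split_ifs
    · exact mul_nonneg (by positivity) (hZ _)
    · exact le_rfl

omit [Fintype Γ] in
lemma dens_nonneg (hp : 0 < p) (h1 : p ≤ 1) (l : List (Finset Γ)) (w : Finset Γ) :
    0 ≤ dens p l w := by
  induction l generalizing w with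
  | nil => simp [dens]
  | cons S l ih => exact step_nonneg hp h1 S ih w

omit [Fintype Γ] in
lemma step_le (hp : 0 < p) (h1 : p ≤ 1) (S : Finset Γ) {Z : Finset Γ → ℝ} {D : ℝ} (hD : 0 ≤ D)
    (hZ : ∀ w, Z w ≤ D) (w : Finset Γ) : step p S Z w ≤ (1 + 1 / (p * S.card)) * D := by
  unfold step
  have h2 : 0 ≤ 1 - p := by linarith
  have ha : (if Disjoint w S then 0 else Z w) ≤ D := by
    split_ifs
    · exact hD
    · exact hZ w
  have hb : ∑ c ∈ S, (if w ∩ S = {c} then (1 - p) / (p * S.card) * Z (w.erase c) else 0)
      ≤ 1 / (p * S.card) * D := by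
    have hq : ∀ c, (1 - p) / (p * S.card) * Z (w.erase c) ≤ 1 / (p * S.card) * D := by
      intro c
      calc (1 - p) / (p * S.card) * Z (w.erase c) ≤ (1 - p) / (p * S.card) * D :=
            mul_le_mul_of_nonneg_left (hZ _) (by positivity)
        _ ≤ 1 / (p * S.card) * D := by
            refine mul_le_mul_of_nonneg_right ?_ hD
            exact div_le_div_of_nonneg_right (by linarith) (by positivity)
    by_cases h : ∃ c ∈ S, w ∩ S = {c}
    · obtain ⟨c, hc, hw⟩ := h
      rw [Finset.sum_eq_single_of_mem c hc]
      · simp only [hw, if_true]; exact hq c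
      · intro b _ hb
        rw [hw, if_neg]
        intro e
        exact hb (Finset.singleton_injective e).symm
    · push Not at h
      rw [Finset.sum_eq_zero fun c hc => if_neg (h c hc)]
      positivity
  linarith

omit [Fintype Γ] in
lemma dens_le (hp : 0 < p) (h1 : p ≤ 1) (l : List (Finset Γ)) (w : Finset Γ) :
    dens p l w ≤ (l.map fun S => 1 + 1 / (p * S.card)).prod := by
  induction l generalizing w with
  | nil => simp [dens]
  | cons S l ih =>
    rw [List.map_cons, List.prod_cons]
    exact step_le hp h1 S (le_trans (dens_nonneg hp h1 l ∅) (ih ∅)) ih w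

omit [Fintype Γ] in
lemma dens_eq_zero (l : List (Finset Γ)) (w : Finset Γ) (h : ∃ S ∈ l, Disjoint w S) :
    dens p l w = 0 := by
  induction l generalizing w with
  | nil => simp at h
  | cons S l ih =>
    obtain ⟨S', hS', hd⟩ := h
    show step p S (dens p l) w = 0
    unfold step
    rcases List.mem_cons.1 hS' with rfl | hl
    · rw [if_pos hd, zero_add]
      refine Finset.sum_eq_zero fun c _ => if_neg ?_
      rw [Finset.disjoint_iff_inter_eq_empty.1 hd]
      exact (Finset.singleton_ne_empty c).symm
    · rw [ih w ⟨S', hl, hd⟩, ite_self, zero_add]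
      refine Finset.sum_eq_zero fun c _ => ?_
      rw [ih (w.erase c) ⟨S', hl, Finset.disjoint_of_subset_left (Finset.erase_subset _ _) hd⟩]
      simp

omit [Fintype Γ] in
lemma inter_eq_of_subset {A S w w' : Finset Γ} (hS : S ⊆ A) (h : w ∩ A = w' ∩ A) :
    w ∩ S = w' ∩ S := by
  ext x
  have := Finset.ext_iff.1 h x
  have h2 := @hS x
  simp only [Finset.mem_inter] at this ⊢
  tauto

omit [Fintype Γ] in
lemma dens_dep {A : Finset Γ} (l : List (Finset Γ)) (hl : ∀ S ∈ l, S ⊆ A) : Dep A (dens p l) := by
  induction l with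
  | nil => intro w w' _; rfl
  | cons S l ih =>
    have ih' := ih fun S' h => hl S' (List.mem_cons_of_mem _ h)
    intro w w' h
    have hS := inter_eq_of_subset (hl S List.mem_cons_self) h
    show step p S (dens p l) w = step p S (dens p l) w'
    unfold step
    have hd : Disjoint w S ↔ Disjoint w' S := by
      rw [Finset.disjoint_iff_inter_eq_empty, Finset.disjoint_iff_inter_eq_empty, hS]
    have he : ∀ c, dens p l (w.erase c) = dens p l (w'.erase c) := fun c =>
      ih' _ _ (by rw [Finset.erase_inter, Finset.erase_inter, h])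
    simp only [hd, hS, he, ih' w w' h]

omit [Fintype Γ] in
lemma mk_one {S : Finset Γ} (hS : S.Nonempty) (w : Finset Γ) : mk S (fun _ => 1) w = 1 := by
  unfold mk
  have : (S.card : ℝ) ≠ 0 := by exact_mod_cast (Finset.card_pos.2 hS).ne'
  split_ifs
  · simp [this]
  · rfl

lemma Ex_dens (hp : 0 < p) (l : List (Finset Γ)) (hl : ∀ S ∈ l, S.Nonempty) :
    Ex p (dens p l) = 1 := by
  induction l with
  | nil => exact Ex_const 1
  | cons S l ih =>
    have := Ex_step hp S (dens p l) (fun _ => 1)
    simp only [mul_one, mk_one (hl S List.mem_cons_self)] at this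
    exact this.trans (ih fun S' h => hl S' (List.mem_cons_of_mem _ h))

/-- Factorial moment bound. -/
def Bst (p : ℝ) (F : Finset Γ → ℝ) (M g : ℝ) : Prop :=
  ∀ C : Finset Γ, Ex p (fun w => F w * ind C w) ≤ M * g ^ C.card

omit [Fintype Γ] in
lemma mk_ind_le {S : Finset Γ} (hS : S.Nonempty) (C w : Finset Γ) :
    mk S (ind C) w ≤ ind C w + ∑ c ∈ C, (1 / (S.card : ℝ)) * ind (C.erase c) w := by
  have hc : (0:ℝ) < S.card := by exact_mod_cast Finset.card_pos.2 hS
  have hn : 0 ≤ ∑ c ∈ C, (1 / (S.card : ℝ)) * ind (C.erase c) w :=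
    Finset.sum_nonneg fun c _ => mul_nonneg (by positivity) (ind_nonneg _ _)
  unfold mk
  split_ifs
  · have h1 : ∀ c ∈ S, (1 / (S.card : ℝ)) * ind C (insert c w) ≤ (1 / (S.card : ℝ)) * ind C w +
        if c ∈ C then (1 / (S.card : ℝ)) * ind (C.erase c) w else 0 := by
      intro c _
      by_cases h : c ∈ C
      · have : ind C (insert c w) = ind (C.erase c) w := by
          simp [ind, Finset.subset_insert_iff]
        rw [this, if_pos h]
        have := mul_nonneg (le_of_lt (one_div_pos.2 hc)) (ind_nonneg C w)
        linarith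
      · have : ind C (insert c w) = ind C w := by
          simp [ind, Finset.subset_insert_iff_of_notMem h]
        rw [this, if_neg h]; simp
    refine (Finset.sum_le_sum h1).trans ?_
    rw [Finset.sum_add_distrib, Finset.sum_const, nsmul_eq_mul, ← Finset.sum_filter]
    have e : (S.card : ℝ) * ((1 / (S.card : ℝ)) * ind C w) = ind C w := by field_simp
    rw [e]
    refine add_le_add le_rfl (Finset.sum_le_sum_of_subset_of_nonneg ?_ fun c _ _ =>
      mul_nonneg (by positivity) (ind_nonneg _ _))
    intro c hc
    exact (Finset.mem_filter.1 hc).2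
  · linarith

lemma pow_add_ge (g s : ℝ) (hg : 0 ≤ g) (hs : 0 ≤ s) (k : ℕ) :
    g ^ k + k * (s * g ^ (k - 1)) ≤ (g + s) ^ k := by
  induction k with
  | zero => simp
  | succ k ih =>
    rcases Nat.eq_zero_or_pos k with rfl | hk
    · simp
    · obtain ⟨j, rfl⟩ : ∃ j, k = j + 1 := ⟨k - 1, by omega⟩
      simp only [Nat.add_sub_cancel] at ih ⊢
      have h1 := mul_le_mul_of_nonneg_right ih (add_nonneg hg hs)
      have h2 : 0 ≤ ((j:ℝ) + 1) * (s * g ^ j) * s := by positivity
      rw [← pow_succ] at h1
      push_cast at h1 ⊢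
      have e : (g ^ (j + 1) + ((j:ℝ) + 1) * (s * g ^ j)) * (g + s)
          = g ^ (j + 1 + 1) + ((j:ℝ) + 1 + 1) * (s * g ^ (j + 1)) + ((j:ℝ) + 1) * (s * g ^ j) * s := by
        ring
      linarith

lemma bst_dens (hp : 0 < p) (h1 : p ≤ 1) (l : List (Finset Γ)) (hl : ∀ S ∈ l, S.Nonempty) :
    Bst p (dens p l) 1 (p + (l.map fun S => 1 / (S.card : ℝ)).sum) := by
  induction l with
  | nil =>
    intro C
    simp only [dens, one_mul, List.map_nil, List.sum_nil, add_zero]
    exact (Ex_ind C).le
  | cons S l ih =>
    have ih' := ih fun S' h => hl S' (List.mem_cons_of_mem _ h)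
    have hS := hl S List.mem_cons_self
    have hc : (0:ℝ) < S.card := by exact_mod_cast Finset.card_pos.2 hS
    intro C
    set g := p + (l.map fun S => 1 / (S.card : ℝ)).sum with hg
    have hg0 : 0 ≤ g := by
      refine add_nonneg hp.le (List.sum_nonneg ?_)
      intro x hx
      obtain ⟨S', _, rfl⟩ := List.mem_map.1 hx
      positivity
    show Ex p (fun w => step p S (dens p l) w * ind C w) ≤ _
    rw [Ex_step hp]
    have e1 : Ex p (fun w => dens p l w * mk S (ind C) w) ≤ Ex p (fun w => dens p l w * ind C w +
        ∑ c ∈ C, (1 / (S.card : ℝ)) * (dens p l w * ind (C.erase c) w)) := by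
      refine Ex_mono hp.le h1 fun w => ?_
      have := mul_le_mul_of_nonneg_left (mk_ind_le hS C w) (dens_nonneg hp h1 l w)
      rw [mul_add, Finset.mul_sum] at this
      refine this.trans (le_of_eq ?_)
      congr 1
      exact Finset.sum_congr rfl fun c _ => by ring
    rw [Ex_add, Ex_sum] at e1
    have e2 : ∑ c ∈ C, Ex p (fun w => (1 / (S.card : ℝ)) * (dens p l w * ind (C.erase c) w))
        ≤ ∑ c ∈ C, (1 / (S.card : ℝ)) * g ^ (C.card - 1) := by
      refine Finset.sum_le_sum fun c hc' => ?_
      rw [Ex_mul]
      have := ih' (C.erase c)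
      rw [Finset.card_erase_of_mem hc', one_mul] at this
      exact mul_le_mul_of_nonneg_left this (by positivity)
    rw [Finset.sum_const, nsmul_eq_mul] at e2
    have e3 := ih' C
    have e4 := pow_add_ge g (1 / (S.card : ℝ)) hg0 (by positivity) C.card
    have e5 : p + ((S :: l).map fun S => 1 / (S.card : ℝ)).sum = g + 1 / (S.card : ℝ) := by
      rw [List.map_cons, List.sum_cons, hg]; ring
    rw [e5]
    linarith

lemma cross_le (hp : 0 < p) (h1 : p ≤ 1) {A : Finset Γ} {g : ℝ} (hg : p ≤ g)
    (l : List (Finset Γ)) (hl : ∀ S ∈ l, S.Nonempty) {F : Finset Γ → ℝ} {M : ℝ}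
    (hF0 : ∀ w, 0 ≤ F w) (hF : Dep A F) (hB : Bst p F M g) :
    Ex p (fun w => dens p l w * F w)
      ≤ M * (l.map fun S => 1 + ((S ∩ A).card : ℝ) / S.card * (g / p)).prod := by
  induction l generalizing F M with
  | nil =>
    have := hB ∅
    simpa [dens, ind] using this
  | cons S l ih =>
    have hS := hl S List.mem_cons_self
    have hc : (0:ℝ) < S.card := by exact_mod_cast Finset.card_pos.2 hS
    have hg0 : 0 < g := lt_of_lt_of_le hp hg
    have hM : 0 ≤ M := by
      have h := hB ∅
      have h2 := Ex_nonneg hp.le h1 (F := fun w => F w * ind ∅ w)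
        (fun w => mul_nonneg (hF0 w) (ind_nonneg _ _))
      simpa using h2.trans h
    let F' : Finset Γ → ℝ := fun w => F w + ∑ c ∈ S ∩ A, (1 / (S.card : ℝ)) * F (insert c w)
    have hF'0 : ∀ w, 0 ≤ F' w := fun w =>
      add_nonneg (hF0 w) (Finset.sum_nonneg fun c _ => mul_nonneg (by positivity) (hF0 _))
    have hF' : Dep A F' := by
      intro w w' h
      have : ∀ c, F (insert c w) = F (insert c w') := fun c => hF _ _ (by
        ext x
        have := Finset.ext_iff.1 h x
        simp only [Finset.mem_inter, Finset.mem_insert] at this ⊢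
        tauto)
      simp only [F', this, hF w w' h]
    have hmk : ∀ w, mk S F w ≤ F' w := by
      intro w
      have hn : 0 ≤ ∑ c ∈ S ∩ A, (1 / (S.card : ℝ)) * F (insert c w) :=
        Finset.sum_nonneg fun c _ => mul_nonneg (by positivity) (hF0 _)
      unfold mk
      split_ifs
      · have h2 : ∀ c ∈ S, (1 / (S.card : ℝ)) * F (insert c w) ≤ (1 / (S.card : ℝ)) * F w +
            if c ∈ A then (1 / (S.card : ℝ)) * F (insert c w) else 0 := by
          intro c _
          by_cases h : c ∈ A
          · rw [if_pos h]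
            have := mul_nonneg (le_of_lt (one_div_pos.2 hc)) (hF0 w)
            linarith
          · rw [if_neg h, hF.insert_eq h]; simp
        refine (Finset.sum_le_sum h2).trans ?_
        rw [Finset.sum_add_distrib, Finset.sum_const, nsmul_eq_mul, ← Finset.sum_filter,
          Finset.filter_mem_eq_inter]
        have e : (S.card : ℝ) * ((1 / (S.card : ℝ)) * F w) = F w := by field_simp
        rw [e]
      · simp only [F']; linarith
    have hB' : Bst p F' (M * (1 + ((S ∩ A).card : ℝ) / S.card * (g / p))) g := by
      intro C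
      have e1 : ∀ c, Ex p (fun w => F (insert c w) * ind C w) ≤ M * g ^ C.card * (g / p) := by
        intro c
        by_cases h : c ∈ C
        · have : Ex p (fun w => F (insert c w) * ind C w) = Ex p (fun w => F w * ind C w) := by
            refine Ex_congr fun w => ?_
            by_cases h' : C ⊆ w
            · rw [Finset.insert_eq_of_mem (h' h)]
            · simp [ind, h']
          rw [this]
          have h3 : 1 ≤ g / p := (one_le_div hp).2 hg
          have h4 : 0 ≤ M * g ^ C.card := by positivity
          nlinarith [hB C]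
        · have h3 := Ex_mem (p := p) c (fun w => F w * ind C w)
          have h4 : Ex p (fun w => if c ∈ w then F w * ind C w else 0)
              = Ex p (fun w => F w * ind (insert c C) w) := by
            refine Ex_congr fun w => ?_
            by_cases h' : c ∈ w <;> simp [ind, Finset.insert_subset_iff, h']
          have h5 : Ex p (fun w => F (insert c w) * ind C (insert c w))
              = Ex p (fun w => F (insert c w) * ind C w) := by
            refine Ex_congr fun w => ?_
            simp [ind, Finset.subset_insert_iff_of_notMem h]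
          rw [h4, h5] at h3
          have h6 := hB (insert c C)
          rw [Finset.card_insert_of_notMem h, h3, pow_succ] at h6
          rw [← mul_div_assoc, le_div_iff₀ hp]
          linarith
      have e2 : Ex p (fun w => F' w * ind C w) = Ex p (fun w => F w * ind C w) +
          ∑ c ∈ S ∩ A, (1 / (S.card : ℝ)) * Ex p (fun w => F (insert c w) * ind C w) := by
        simp only [← Ex_mul]
        rw [← Ex_sum, ← Ex_add]
        refine Ex_congr fun w => ?_
        simp only [F', add_mul, Finset.sum_mul, mul_assoc]
      have e3 : ∑ c ∈ S ∩ A, (1 / (S.card : ℝ)) * Ex p (fun w => F (insert c w) * ind C w)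
          ≤ ∑ c ∈ S ∩ A, (1 / (S.card : ℝ)) * (M * g ^ C.card * (g / p)) :=
        Finset.sum_le_sum fun c _ => mul_le_mul_of_nonneg_left (e1 c) (by positivity)
      rw [Finset.sum_const, nsmul_eq_mul] at e3
      rw [e2]
      have e4 := hB C
      have e5 : M * (1 + ((S ∩ A).card : ℝ) / S.card * (g / p)) * g ^ C.card = M * g ^ C.card +
          ((S ∩ A).card : ℝ) * ((1 / (S.card : ℝ)) * (M * g ^ C.card * (g / p))) := by ring
      rw [e5]
      linarith
    show Ex p (fun w => step p S (dens p l) w * F w) ≤ _
    rw [Ex_step hp, List.map_cons, List.prod_cons, ← mul_assoc]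
    refine le_trans (Ex_mono hp.le h1 fun w =>
      mul_le_mul_of_nonneg_left (hmk w) (dens_nonneg hp h1 l w)) ?_
    exact ih (fun S' h => hl S' (List.mem_cons_of_mem _ h)) hF'0 hF' hB'

end Vale.Agent.P230
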