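import Vale.Agent.P230.Lattice
import Vale.Agent.P230.Lower

open MeasureTheory Set Metric Filter Topology
open scoped ENNReal Pointwise

namespace Vale.Agent.P230

variable {n : ℕ}

/-- The homothetic copy `x + a K`. -/
def tr (x : E n) (a : ℝ) (K : Set (E n)) : Set (E n) := x +ᵥ a • K

lemma mem_tr {x y : E n} {a : ℝ} {K : Set (E n)} : y ∈ tr x a K ↔ ∃ k ∈ K, x + a • k = y := by
  simp [tr, mem_vadd_set, mem_smul_set]

lemma volume_tr (x : E n) (a : ℝ) (K : Set (E n)) :
    volume (tr x a K) = ENNReal.ofReal |a ^ n| * volume K := by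
  rw [tr, measure_vadd, Measure.addHaar_smul, finrank_euclideanSpace_fin]

lemma real_tr (x : E n) (a : ℝ) (K : Set (E n)) :
    volume.real (tr x a K) = |a| ^ n * volume.real K := by
  rw [measureReal_def, volume_tr, ENNReal.toReal_mul, ENNReal.toReal_ofReal (abs_nonneg _),
    abs_pow, measureReal_def]

lemma tr_compact (x : E n) (a : ℝ) {K : Set (E n)} (hK : IsCompact K) : IsCompact (tr x a K) :=
  (hK.smul a).vadd x

lemma tr_convex (x : E n) (a : ℝ) {K : Set (E n)} (hK : Convex ℝ K) : Convex ℝ (tr x a K) :=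
  (hK.smul a).vadd x

lemma cube_measurable (R : ℝ) : MeasurableSet (cube n R) := by
  have : cube n R = ⋂ i, {x : E n | |x i| ≤ R} := by ext x; simp [cube]
  rw [this]
  exact (isClosed_iInter fun i => isClosed_le (by fun_prop) continuous_const).measurableSet

lemma real_cube {R : ℝ} (hR : 0 ≤ R) : volume.real (cube n R) = (2 * R) ^ n := by
  rw [measureReal_def, volume_cube hR, ENNReal.toReal_ofReal (by positivity)]

lemma cube_ne_top (R : ℝ) : volume (cube n R) ≠ ⊤ := (cube_bounded R).measure_lt_top.ne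

lemma exists_center (hn : 1 ≤ n) {K : Set (E n)} (h1 : IsCompact K) (h2 : Convex ℝ K)
    (h3 : K.Nonempty) : ∃ c : E n, ∀ x ∈ K, ∃ k ∈ K,
      (1 / ((n:ℝ) + 1)) • x + ((n:ℝ) / (n + 1)) • k = c := by
  classical
  have hn0 : (0:ℝ) < n := by exact_mod_cast hn
  have := Convex.helly_theorem_compact' (𝕜 := ℝ)
    (F := fun x : K => tr ((1 / ((n:ℝ) + 1)) • x.1) ((n:ℝ) / (n + 1)) K)
    (fun x => tr_convex _ _ h2) (fun x => tr_compact _ _ h1) (by
      intro I hI
      rw [finrank_euclideanSpace_fin] at hI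
      obtain ⟨x0, hx0⟩ := h3
      have hI' : (I.card : ℝ) ≤ n + 1 := by exact_mod_cast hI
      refine ⟨(1 / ((n:ℝ) + 1)) • (∑ i ∈ I, i.1 + ((n:ℝ) + 1 - I.card) • x0), ?_⟩
      simp only [mem_iInter]
      intro j hj
      have hc : (I.card : ℝ) = (I.erase j).card + 1 := by
        exact_mod_cast (Finset.card_erase_add_one hj).symm
      refine mem_tr.2 ⟨∑ o ∈ (I.erase j).insertNone, (o.elim (((n:ℝ) + 1 - I.card) / n)
        fun _ => 1 / (n:ℝ)) • (o.elim x0 fun i => i.1), h2.sum_mem ?_ ?_ ?_, ?_⟩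
      · rintro (_ | i) _
        · exact div_nonneg (by linarith) hn0.le
        · simp only [Option.elim]; positivity
      · rw [Finset.sum_insertNone]
        simp only [Option.elim, Finset.sum_const, nsmul_eq_mul]
        rw [hc]; field_simp; ring
      · rintro (_ | i) _
        · exact hx0
        · exact i.2
      · rw [Finset.sum_insertNone]
        simp only [Option.elim]
        rw [← Finset.smul_sum, ← Finset.add_sum_erase I _ hj]
        simp only [smul_add, smul_smul]
        have e1 : (n:ℝ) / (n + 1) * (((n:ℝ) + 1 - I.card) / n)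
            = 1 / ((n:ℝ) + 1) * ((n:ℝ) + 1 - I.card) := by field_simp
        have e2 : (n:ℝ) / (n + 1) * (1 / n) = 1 / ((n:ℝ) + 1) := by field_simp
        rw [e1, e2]
        abel)
  obtain ⟨c, hc⟩ := this
  exact ⟨c, fun x hx => mem_tr.1 (mem_iInter.1 hc ⟨x, hx⟩)⟩

lemma greedy_step {K : Set (E n)} (hK : IsCompact K) {D r : ℝ} (hD : K ⊆ cube n D) (hr : 0 < r)
    (hD0 : 0 ≤ D) {U : Set (E n)} (hU : MeasurableSet U) (hUr : U ⊆ cube n r) :
    ∃ x, volume.real (U \ tr x 1 K)
      ≤ (1 - volume.real K / (2 * (2 * (r + D)) ^ n)) * volume.real U := by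
  have hUf : volume U ≠ ⊤ := measure_ne_top_of_subset hUr (cube_ne_top r)
  have hV : 0 < (2 * (r + D)) ^ n := by positivity
  set a := volume.real K / (2 * (2 * (r + D)) ^ n) * volume.real U with ha
  have ha0 : 0 ≤ a := by positivity
  by_contra hc
  push Not at hc
  have h1 : ∀ x, volume.real (U ∩ tr x 1 K) < a := by
    intro x
    have h2 := measureReal_inter_add_sdiff (μ := volume) (s := U)
      (tr_compact x 1 hK).measurableSet hUf
    have h3 := hc x
    rw [ha]
    linarith
  have hapos : 0 < a := lt_of_le_of_lt measureReal_nonneg (h1 0)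
  let S : Set (E n × E n) := {q | q.2 ∈ U ∧ q.2 - q.1 ∈ K}
  have hS : MeasurableSet S :=
    (measurable_snd hU).inter ((measurable_snd.sub measurable_fst) hK.measurableSet)
  have e1 := Measure.prod_apply (μ := volume) (ν := volume) hS
  have e2 := Measure.prod_apply_symm (μ := volume) (ν := volume) hS
  have h2 : ∫⁻ x, volume (Prod.mk x ⁻¹' S) ≤ ENNReal.ofReal a * volume (cube n (r + D)) := by
    rw [← lintegral_indicator_const (cube_measurable _)]
    refine lintegral_mono fun x => ?_
    have e : Prod.mk x ⁻¹' S = U ∩ tr x 1 K := by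
      ext y
      simp only [S, mem_preimage, mem_ofPred_eq, mem_inter_iff, mem_tr, one_smul]
      refine and_congr_right fun _ => ⟨fun h => ⟨_, h, by abel⟩, ?_⟩
      rintro ⟨k, hk, rfl⟩
      simpa using hk
    by_cases hx : x ∈ cube n (r + D)
    · rw [indicator_of_mem hx, e,
        ← ofReal_measureReal (measure_ne_top_of_subset inter_subset_left hUf)]
      exact ENNReal.ofReal_le_ofReal (h1 x).le
    · have : Prod.mk x ⁻¹' S = ∅ := by
        ext y
        simp only [S, mem_preimage, mem_ofPred_eq, mem_empty_iff_false, iff_false, not_and]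
        intro hy hk
        refine hx fun i => ?_
        have g1 := hUr hy i
        have g2 := hD hk i
        have e : x i = y i - (y - x) i := by simp
        rw [e]
        exact (abs_sub _ _).trans (add_le_add g1 g2)
      rw [this]; simp
  have h3 : ∫⁻ y, volume ((fun x => (x, y)) ⁻¹' S) = volume K * volume U := by
    rw [← lintegral_indicator_const hU]
    refine lintegral_congr fun y => ?_
    by_cases hy : y ∈ U
    · have e : (fun x => (x, y)) ⁻¹' S = tr y (-1) K := by
        ext x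
        simp only [S, mem_preimage, mem_ofPred_eq, mem_tr, hy, true_and, neg_smul, one_smul]
        refine ⟨fun h => ⟨_, h, by abel⟩, ?_⟩
        rintro ⟨k, hk, rfl⟩
        simpa using hk
      rw [indicator_of_mem hy, e, volume_tr]
      simp
    · have e : (fun x => (x, y)) ⁻¹' S = ∅ := by
        ext x
        simp [S, hy]
      rw [indicator_of_notMem hy, e, measure_empty]
  rw [← e1, e2, h3] at h2
  have h4 := ENNReal.toReal_mono (ENNReal.mul_ne_top ENNReal.ofReal_ne_top (cube_ne_top _)) h2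
  rw [ENNReal.toReal_mul, ENNReal.toReal_mul, ENNReal.toReal_ofReal ha0, ← measureReal_def,
    ← measureReal_def, ← measureReal_def, real_cube (by linarith)] at h4
  have e3 : volume.real K * volume.real U = 2 * (a * (2 * (r + D)) ^ n) := by
    rw [ha]; field_simp
  have : 0 < a * (2 * (r + D)) ^ n := by positivity
  linarith

lemma greedy_iter {K : Set (E n)} (hK : IsCompact K) {D r : ℝ} (hD : K ⊆ cube n D) (hr : 0 < r)
    (hD0 : 0 ≤ D) (N : ℕ) : ∃ X : Finset (E n), X.card ≤ N ∧
      volume.real (cube n r \ ⋃ x ∈ X, tr x 1 K)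
        ≤ (1 - volume.real K / (2 * (2 * (r + D)) ^ n)) ^ N * (2 * r) ^ n := by
  classical
  induction N with
  | zero => exact ⟨∅, le_rfl, by simp [real_cube hr.le]⟩
  | succ N ih =>
    obtain ⟨X, hX, hv⟩ := ih
    obtain ⟨x, hx⟩ := greedy_step hK hD hr hD0 (U := cube n r \ ⋃ x ∈ X, tr x 1 K)
      ((cube_measurable r).diff (X.measurableSet_biUnion
        fun x _ => (tr_compact x 1 hK).measurableSet)) sdiff_subset
    refine ⟨insert x X, (Finset.card_insert_le _ _).trans (by omega), ?_⟩
    have e : cube n r \ ⋃ y ∈ insert x X, tr y 1 K = (cube n r \ ⋃ y ∈ X, tr y 1 K) \ tr x 1 K := by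
      rw [Finset.set_biUnion_insert, sdiff_sdiff, union_comm]
    have h1 : volume.real K ≤ (2 * (r + D)) ^ n := by
      have h2 := measureReal_mono (μ := volume) hD (cube_ne_top D)
      rw [real_cube hD0] at h2
      exact h2.trans (pow_le_pow_left₀ (by positivity) (by linarith) n)
    have hV : 0 < (2 * (r + D)) ^ n := by positivity
    have h0 : 0 ≤ 1 - volume.real K / (2 * (2 * (r + D)) ^ n) := by
      rw [sub_nonneg, div_le_one (by positivity)]
      linarith
    rw [e, pow_succ]
    have := mul_le_mul_of_nonneg_left hv h0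
    linarith

lemma packing {K : Set (E n)} (hK : IsCompact K) (a : ℝ) (M : ℕ) :
    ∀ U : Set (E n), volume U ≠ ⊤ → volume.real U < (M + 1) * (|a| ^ n * volume.real K) →
      ∃ Y : Finset (E n), Y.card ≤ M ∧
        ∀ y, tr y a K ⊆ U → ∃ y' ∈ Y, (tr y a K ∩ tr y' a K).Nonempty := by
  classical
  induction M with
  | zero =>
    intro U hU h
    refine ⟨∅, le_rfl, fun y hy => ?_⟩
    have := measureReal_mono (μ := volume) hy hU
    rw [real_tr] at this
    simp only [Nat.cast_zero, zero_add, one_mul] at h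
    linarith
  | succ M ih =>
    intro U hU h
    by_cases hy : ∃ y, tr y a K ⊆ U
    · obtain ⟨y1, hy1⟩ := hy
      have h1 := measureReal_sdiff (μ := volume) hy1 (tr_compact y1 a hK).measurableSet hU
      rw [real_tr] at h1
      obtain ⟨Y, hY, hY'⟩ := ih (U \ tr y1 a K) (measure_ne_top_of_subset sdiff_subset hU)
        (by push_cast at h; linarith)
      refine ⟨insert y1 Y, (Finset.card_insert_le _ _).trans (by omega), fun y hy => ?_⟩
      by_cases hm : (tr y a K ∩ tr y1 a K).Nonempty
      · exact ⟨y1, Finset.mem_insert_self _ _, hm⟩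
      · obtain ⟨y', g1, g2⟩ := hY' y fun z hz => ⟨hy hz, fun hz' => hm ⟨z, hz, hz'⟩⟩
        exact ⟨y', Finset.mem_insert_of_mem g1, g2⟩
    · exact ⟨∅, Nat.zero_le _, fun y h' => absurd ⟨y, h'⟩ hy⟩

lemma cover_cube (hn : 3 ≤ n) {K : Set (E n)} (hK : IsCompact K) (hv : 0 < volume.real K)
    (hs : ∀ k ∈ K, (-(1 / (n:ℝ))) • k ∈ K) :
    ∃ r : ℝ, 0 < r ∧ ∃ X : Finset (E n), X.card * volume.real K ≤ 15 * (n * Real.log n) * (2 * r) ^ n ∧
      ∀ y ∈ cube n r, ∃ x ∈ X, ∃ a ∈ K, ∃ b ∈ K, x + a + (1 / (n:ℝ)) • b = y := by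
  classical
  have hn' : (3:ℝ) ≤ n := by exact_mod_cast hn
  have hn0 : (0:ℝ) < n := by linarith
  obtain ⟨D, hD0, hD'⟩ := hK.isBounded.subset_closedBall_lt 0 0
  have hD := hD'.trans (closedBall_subset_cube D)
  set v := volume.real K with hvdef
  set r := 2 * n * D with hr
  have hr0 : 0 < r := by positivity
  set V := (2 * (r + D + D)) ^ n with hV
  have hV0 : 0 < V := by positivity
  have hvV : v ≤ V := by
    have h2 := measureReal_mono (μ := volume) hD (cube_ne_top D)
    rw [real_cube hD0.le] at h2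
    exact h2.trans (pow_le_pow_left₀ (by positivity) (by linarith) n)
  have hV' : (2 * (r + D)) ^ n ≤ V := pow_le_pow_left₀ (by positivity) (by linarith) n
  have hVr : V ≤ 3 * (2 * r) ^ n := by
    have e : 2 * (r + D + D) = (1 + 1 / n) * (2 * r) := by rw [hr]; field_simp; ring
    have h1 := one_add_pow_le (n := n) (by omega) 1 zero_le_one
    have h2 := Real.exp_one_lt_d9
    rw [hV, e, mul_pow]
    exact mul_le_mul_of_nonneg_right (by linarith) (by positivity)
  have hlog : 1 ≤ Real.log n := by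
    rw [Real.le_log_iff_exp_le hn0]
    linarith [Real.exp_one_lt_d9]
  set t := n * Real.log n with ht
  have ht1 : 1 ≤ t := by nlinarith
  obtain ⟨X, hX, hU⟩ := greedy_iter hK hD (r := r + D) (by positivity) hD0.le ⌈2 * V / v * t⌉₊
  rw [← hV, ← hvdef] at hU
  have h1 : (1 - v / (2 * V)) ^ ⌈2 * V / v * t⌉₊ ≤ |(-(1 / (n:ℝ)))| ^ n := by
    have h2 : 1 - v / (2 * V) ≤ Real.exp (-(v / (2 * V))) := by
      linarith [Real.add_one_le_exp (-(v / (2 * V)))]
    have h0 : 0 ≤ 1 - v / (2 * V) := by
      rw [sub_nonneg, div_le_one (by positivity)]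
      linarith
    refine (pow_le_pow_left₀ h0 h2 _).trans ?_
    rw [abs_neg, abs_of_pos (by positivity), one_div, ← Real.exp_log hn0, ← Real.exp_neg,
      ← Real.exp_nat_mul, ← Real.exp_nat_mul]
    refine Real.exp_le_exp.2 ?_
    have h3 := mul_le_mul_of_nonneg_right (Nat.le_ceil (2 * V / v * t))
      (show 0 ≤ v / (2 * V) by positivity)
    have e : 2 * V / v * t * (v / (2 * V)) = t := by field_simp
    linarith
  obtain ⟨Y, hY, hY'⟩ := packing hK (-(1 / (n:ℝ))) ⌈V / v⌉₊ (cube n (r + D) \ ⋃ x ∈ X, tr x 1 K)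
    (measure_ne_top_of_subset sdiff_subset (cube_ne_top _)) (by
      have hp : 0 < |(-(1 / (n:ℝ)))| ^ n := by
        rw [abs_neg, abs_of_pos (by positivity)]; positivity
      have h2 := mul_le_mul h1 hV' (by positivity) hp.le
      have h3 := Nat.le_ceil (V / v)
      rw [div_le_iff₀ hv] at h3
      have h4 := mul_le_mul_of_nonneg_left h3 hp.le
      have h5 := mul_pos hp hv
      rw [← hvdef]
      linarith)
  refine ⟨r, hr0, X ∪ Y, ?_, ?_⟩
  · have h2 : ((X ∪ Y).card : ℝ) ≤ X.card + Y.card := by exact_mod_cast Finset.card_union_le X Y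
    have h3 : (X.card : ℝ) ≤ 2 * V / v * t + 1 :=
      le_trans (by exact_mod_cast hX) (Nat.ceil_lt_add_one (by positivity)).le
    have h4 : (Y.card : ℝ) ≤ V / v + 1 :=
      le_trans (by exact_mod_cast hY) (Nat.ceil_lt_add_one (by positivity)).le
    have h5 := mul_le_mul_of_nonneg_right (h2.trans (add_le_add h3 h4)) hv.le
    have e : (2 * V / v * t + 1 + (V / v + 1)) * v = 2 * V * t + V + 2 * v := by field_simp; ring
    have h6 : V ≤ V * t := le_mul_of_one_le_right hV0.le ht1
    have h7 := mul_le_mul_of_nonneg_right hVr (show 0 ≤ t by linarith)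
    linarith
  · intro y hy
    by_cases h : tr y (-(1 / (n:ℝ))) K ⊆ cube n (r + D) \ ⋃ x ∈ X, tr x 1 K
    · obtain ⟨y', g1, z, g2, g3⟩ := hY' y h
      obtain ⟨k, hk, rfl⟩ := mem_tr.1 g2
      obtain ⟨k', hk', e⟩ := mem_tr.1 g3
      refine ⟨y', Finset.mem_union_right _ g1, _, hs k' hk', k, hk, ?_⟩
      rw [e, neg_smul]; abel
    · obtain ⟨z, g1, g2⟩ := not_subset.1 h
      obtain ⟨k, hk, rfl⟩ := mem_tr.1 g1
      have g3 : y + (-(1 / (n:ℝ))) • k ∈ cube n (r + D) := fun i => by
        rw [PiLp.add_apply]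
        exact (abs_add_le _ _).trans (add_le_add (hy i) (hD (hs k hk) i))
      have g4 : y + (-(1 / (n:ℝ))) • k ∈ ⋃ x ∈ X, tr x 1 K := by
        by_contra g5
        exact g2 ⟨g3, g5⟩
      obtain ⟨x, hx, g5⟩ := mem_iUnion₂.1 g4
      obtain ⟨k', hk', e⟩ := mem_tr.1 g5
      refine ⟨x, Finset.mem_union_left _ hx, k', hk', k, hk, ?_⟩
      rw [one_smul] at e
      rw [e, neg_smul]; abel

end Vale.Agent.P230
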